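import Mathlib

/-!
Gap estimate on a strongly connected class of reactions: if the potential `b` has a large spread
on a class, the entropy production `∑ k e^{b(src)} (b(tgt) - b(src))` is strongly negative.
-/

namespace Vale.Agent.P072

open Finset

noncomputable section

/-- The gap needed at height `H`. -/
def gapFn (N : ℕ) (kl ku Γ H : ℝ) : ℝ :=
  (N : ℝ) * (ku / kl) * Real.exp H * (H + 1 + Γ)

/-- The sequence of heights. -/
def lev (N : ℕ) (kl ku Γ : ℝ) : ℕ → ℝ
  | 0 => 0
  | m + 1 => lev N kl ku Γ m + gapFn N kl ku Γ (lev N kl ku Γ m)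

lemma gapFn_ge {N : ℕ} {kl ku Γ H : ℝ} (hN : 1 ≤ N) (hkl : 0 < kl) (hku : kl ≤ ku) (hΓ : 0 ≤ Γ)
    (hH : 0 ≤ H) : H + 1 + Γ ≤ gapFn N kl ku Γ H := by
  unfold gapFn
  have h1 : (1 : ℝ) ≤ N := by exact_mod_cast hN
  have h2 : 1 ≤ ku / kl := by rw [le_div_iff₀ hkl]; linarith
  have h3 : 1 ≤ Real.exp H := Real.one_le_exp hH
  have h4 : (1 : ℝ) ≤ (N : ℝ) * (ku / kl) * Real.exp H := by
    have : (1 : ℝ) ≤ (N : ℝ) * (ku / kl) := by nlinarith
    nlinarith
  nlinarith

lemma lev_nonneg {N : ℕ} {kl ku Γ : ℝ} (hN : 1 ≤ N) (hkl : 0 < kl) (hku : kl ≤ ku) (hΓ : 0 ≤ Γ)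
    (m : ℕ) : 0 ≤ lev N kl ku Γ m := by
  induction m with
  | zero => simp [lev]
  | succ m ih =>
    simp only [lev]
    have := gapFn_ge (N := N) hN hkl hku hΓ ih
    linarith

lemma lev_mono {N : ℕ} {kl ku Γ : ℝ} (hN : 1 ≤ N) (hkl : 0 < kl) (hku : kl ≤ ku) (hΓ : 0 ≤ Γ) :
    Monotone (lev N kl ku Γ) := by
  apply monotone_nat_of_le_succ
  intro m
  simp only [lev]
  have h0 := lev_nonneg hN hkl hku hΓ m
  have := gapFn_ge (N := N) hN hkl hku hΓ h0
  linarith

/-- The class estimate. -/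
theorem class_bound {ι : Type*} [DecidableEq ι] (C : Finset ι) (A B k : ι → ℝ) (N : ℕ)
    (kl ku Γ : ℝ) (hkl : 0 < kl) (hku : kl ≤ ku) (hΓ : 0 ≤ Γ) (hN : C.card ≤ N)
    (hk : ∀ r ∈ C, kl ≤ k r ∧ k r ≤ ku) (hT : ∀ r ∈ C, ∃ ρ ∈ C, A ρ = B r)
    (hexit : ∀ θ : ℝ, ∀ r ∈ C, ∀ r' ∈ C, θ ≤ A r → A r' < θ → ∃ r'' ∈ C, θ ≤ A r'' ∧ B r'' < θ)
    (hspread : ∃ r ∈ C, lev N kl ku Γ N + 1 ≤ |B r - A r|) :
    ∑ r ∈ C, k r * Real.exp (A r) * (B r - A r) ≤ -Γ * ∑ r ∈ C, k r * Real.exp (A r) := by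
  classical
  obtain ⟨r₁, hr₁, hsp⟩ := hspread
  have hne : C.Nonempty := ⟨r₁, hr₁⟩
  have hN1 : 1 ≤ N := le_trans (Finset.card_pos.mpr hne) hN
  obtain ⟨rM, hrM, hM⟩ := C.exists_max_image A hne
  set M := A rM with hMdef
  have hBM : ∀ r ∈ C, B r ≤ M := fun r hr => by
    obtain ⟨ρ, hρ, e⟩ := hT r hr
    rw [← e]; exact hM ρ hρ
  set L := lev N kl ku Γ with hLdef
  have hL0 : ∀ m, 0 ≤ L m := lev_nonneg hN1 hkl hku hΓ
  have hLmono : Monotone L := lev_mono hN1 hkl hku hΓ
  let U : ℕ → Finset ι := fun m => C.filter (fun r => M - L m ≤ A r)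
  have hpig : ∃ m < N, U m = U (m + 1) := by
    by_contra hcon
    push_neg at hcon
    have hc : ∀ m, m ≤ N → m + 1 ≤ (U m).card := by
      intro m
      induction m with
      | zero =>
        intro _
        have : rM ∈ U 0 := by
          simp only [U, Finset.mem_filter]
          exact ⟨hrM, by linarith [hL0 0]⟩
        exact Finset.card_pos.mpr ⟨rM, this⟩
      | succ m ih =>
        intro hm
        have hsub : U m ⊆ U (m + 1) := by
          intro r hr
          simp only [U, Finset.mem_filter] at hr ⊢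
          exact ⟨hr.1, by linarith [hr.2, hLmono (Nat.le_succ m)]⟩
        have hss : U m ⊂ U (m + 1) :=
          Finset.ssubset_iff_subset_ne.mpr ⟨hsub, hcon m (by omega)⟩
        have := Finset.card_lt_card hss
        have := ih (by omega)
        omega
    have h2 := hc N le_rfl
    have h3 : (U N).card ≤ C.card := Finset.card_filter_le _ _
    omega
  obtain ⟨m, hmN, hm⟩ := hpig
  have hUne : ∃ r' ∈ C, A r' < M - L m := by
    by_contra hcon
    push_neg at hcon
    have h5 : |B r₁ - A r₁| ≤ L m := by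
      have h1 := hcon r₁ hr₁
      obtain ⟨ρ, hρ, e⟩ := hT r₁ hr₁
      have h2 := hcon ρ hρ
      rw [e] at h2
      have h3 := hBM r₁ hr₁
      have h4 := hM r₁ hr₁
      rw [abs_le]
      constructor <;> linarith
    have h6 : L m ≤ L N := hLmono hmN.le
    linarith
  obtain ⟨r', hr', hr'lt⟩ := hUne
  obtain ⟨R0, hR0, hR0a, hR0b⟩ :=
    hexit (M - L m) rM hrM r' hr' (by linarith [hL0 m]) hr'lt
  set H := L m with hHdef
  have hH0 : 0 ≤ H := hL0 m
  set G := gapFn N kl ku Γ H with hGdef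
  have hG : H + 1 + Γ ≤ G := gapFn_ge hN1 hkl hku hΓ hH0
  have hLsucc : L (m + 1) = H + G := rfl
  have hgap : B R0 < M - H - G := by
    obtain ⟨ρ, hρ, e⟩ := hT R0 hR0
    by_contra hcon
    push_neg at hcon
    have h1 : ρ ∈ U (m + 1) := by
      simp only [U, Finset.mem_filter]
      refine ⟨hρ, ?_⟩
      rw [e, hLsucc]
      linarith
    rw [← hm] at h1
    simp only [U, Finset.mem_filter] at h1
    have h2 := h1.2
    rw [e] at h2
    linarith
  set Q := ku * Real.exp M * (H + 1 + Γ) with hQdef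
  have hku0 : 0 < ku := lt_of_lt_of_le hkl hku
  have hQ0 : 0 ≤ Q := by positivity
  have term : ∀ r ∈ C, k r * Real.exp (A r) * (B r - A r + Γ) ≤ Q := by
    intro r hr
    obtain ⟨hk1, hk2⟩ := hk r hr
    have hk0 : 0 < k r := lt_of_lt_of_le hkl hk1
    by_cases hneg : B r - A r + Γ ≤ 0
    · have : k r * Real.exp (A r) * (B r - A r + Γ) ≤ 0 :=
        mul_nonpos_of_nonneg_of_nonpos (by positivity) hneg
      linarith
    push_neg at hneg
    have hAM := hM r hr
    have hB := hBM r hr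
    have hstep : k r * Real.exp (A r) * (B r - A r + Γ) ≤ ku * (Real.exp (A r) * (B r - A r + Γ)) := by
      have : 0 ≤ Real.exp (A r) * (B r - A r + Γ) := by positivity
      nlinarith
    have hcore : Real.exp (A r) * (B r - A r + Γ) ≤ Real.exp M * (H + 1 + Γ) := by
      by_cases hU : M - H ≤ A r
      · have h1 : Real.exp (A r) ≤ Real.exp M := Real.exp_le_exp.mpr hAM
        have h2 : B r - A r + Γ ≤ H + 1 + Γ := by linarith
        have h3 : 0 ≤ Real.exp M := (Real.exp_pos _).le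
        calc Real.exp (A r) * (B r - A r + Γ) ≤ Real.exp M * (B r - A r + Γ) :=
              mul_le_mul_of_nonneg_right h1 hneg.le
          _ ≤ Real.exp M * (H + 1 + Γ) := mul_le_mul_of_nonneg_left h2 h3
      · push_neg at hU
        set w := M - A r with hw
        have hw0 : 0 ≤ w := by linarith
        have h1 : w ≤ Real.exp w := by linarith [Real.add_one_le_exp w]
        have h2 : Real.exp M = Real.exp (A r) * Real.exp w := by
          rw [← Real.exp_add]; congr 1; linarith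
        have hpos := Real.exp_pos (A r)
        have hposw := Real.exp_pos w
        have h3 : Real.exp (A r) * w ≤ Real.exp M := by
          rw [h2]; exact mul_le_mul_of_nonneg_left h1 hpos.le
        have h4 : Real.exp (A r) ≤ Real.exp M := Real.exp_le_exp.mpr hAM
        have h5 : B r - A r + Γ ≤ w + Γ := by rw [hw]; linarith
        have h6 : Real.exp (A r) * (B r - A r + Γ) ≤ Real.exp (A r) * (w + Γ) :=
          mul_le_mul_of_nonneg_left h5 hpos.le
        have h7 : Real.exp (A r) * Γ ≤ Real.exp M * Γ := mul_le_mul_of_nonneg_right h4 hΓ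
        have h8 : 0 ≤ Real.exp M * H := by positivity
        nlinarith
    calc k r * Real.exp (A r) * (B r - A r + Γ) ≤ ku * (Real.exp (A r) * (B r - A r + Γ)) := hstep
      _ ≤ ku * (Real.exp M * (H + 1 + Γ)) := mul_le_mul_of_nonneg_left hcore hku0.le
      _ = Q := by rw [hQdef]; ring
  have termR0 : k R0 * Real.exp (A R0) * (B R0 - A R0 + Γ) ≤ -(N : ℝ) * Q + Q := by
    obtain ⟨hk1, hk2⟩ := hk R0 hR0
    have hk0 : 0 < k R0 := lt_of_lt_of_le hkl hk1
    have hneg : B R0 - A R0 + Γ ≤ -G + Γ := by linarith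
    have hneg2 : -G + Γ ≤ 0 := by linarith
    have he : Real.exp (M - H) ≤ Real.exp (A R0) := Real.exp_le_exp.mpr hR0a
    have hlow : kl * Real.exp (M - H) ≤ k R0 * Real.exp (A R0) :=
      mul_le_mul hk1 he (Real.exp_pos _).le hk0.le
    have h1 : k R0 * Real.exp (A R0) * (B R0 - A R0 + Γ) ≤ kl * Real.exp (M - H) * (-G + Γ) := by
      calc k R0 * Real.exp (A R0) * (B R0 - A R0 + Γ) ≤ k R0 * Real.exp (A R0) * (-G + Γ) :=
            mul_le_mul_of_nonneg_left hneg (by positivity)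
        _ ≤ kl * Real.exp (M - H) * (-G + Γ) := mul_le_mul_of_nonpos_right hlow hneg2
    have hGval : kl * Real.exp (M - H) * G = (N : ℝ) * Q := by
      rw [hGdef, hQdef]
      unfold gapFn
      rw [Real.exp_sub]
      have hEH := Real.exp_pos H
      field_simp
    have h2 : kl * Real.exp (M - H) * Γ ≤ Q := by
      have hh : Real.exp (M - H) ≤ Real.exp M := Real.exp_le_exp.mpr (by linarith)
      have h3 : kl * Real.exp (M - H) ≤ ku * Real.exp M :=
        mul_le_mul hku hh (Real.exp_pos _).le hku0.le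
      have h4 : kl * Real.exp (M - H) * Γ ≤ ku * Real.exp M * Γ :=
        mul_le_mul_of_nonneg_right h3 hΓ
      have h5 : 0 ≤ ku * Real.exp M * (H + 1) := by positivity
      rw [hQdef]
      nlinarith
    have h3 : kl * Real.exp (M - H) * (-G + Γ) = -(kl * Real.exp (M - H) * G) + kl * Real.exp (M - H) * Γ := by
      ring
    rw [h3, hGval] at h1
    linarith
  have hs : ∑ r ∈ C, k r * Real.exp (A r) * (B r - A r + Γ) ≤ 0 := by
    rw [← Finset.add_sum_erase C _ hR0]
    have h1 : ∑ r ∈ C.erase R0, k r * Real.exp (A r) * (B r - A r + Γ) ≤ ((C.card - 1 : ℕ) : ℝ) * Q := by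
      have := Finset.sum_le_card_nsmul (C.erase R0) (fun r => k r * Real.exp (A r) * (B r - A r + Γ)) Q
        (fun r hr => term r (Finset.mem_of_mem_erase hr))
      rw [Finset.card_erase_of_mem hR0, nsmul_eq_mul] at this
      exact this
    have hc1 : 1 ≤ C.card := Finset.card_pos.mpr hne
    have h2 : ((C.card - 1 : ℕ) : ℝ) ≤ (N : ℝ) - 1 := by
      rw [Nat.cast_sub hc1]
      have : (C.card : ℝ) ≤ N := by exact_mod_cast hN
      push_cast
      linarith
    have h3 : ((C.card - 1 : ℕ) : ℝ) * Q ≤ ((N : ℝ) - 1) * Q := mul_le_mul_of_nonneg_right h2 hQ0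
    nlinarith
  have hfinal : ∑ r ∈ C, k r * Real.exp (A r) * (B r - A r + Γ)
      = ∑ r ∈ C, k r * Real.exp (A r) * (B r - A r) + Γ * ∑ r ∈ C, k r * Real.exp (A r) := by
    rw [Finset.mul_sum, ← Finset.sum_add_distrib]
    apply Finset.sum_congr rfl
    intro r _
    ring
  rw [hfinal] at hs
  linarith

end

end Vale.Agent.P072
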