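import Mathlib

/-!
A `C¹` cut-off.
-/

namespace Vale.Agent.P072

open Filter Topology Set

noncomputable section

/-- The cut-off profile. -/
def zeta (u : ℝ) : ℝ := if u ≤ 1 then 1 else if u ≤ 2 then (2 - u) ^ 2 * (2 * u - 1) else 0

/-- Its derivative. -/
def zeta' (u : ℝ) : ℝ := if u ≤ 1 then 0 else if u ≤ 2 then 6 * (2 - u) * (1 - u) else 0

lemma hasDerivAt_poly (u : ℝ) :
    HasDerivAt (fun y : ℝ => (2 - y) ^ 2 * (2 * y - 1)) (6 * (2 - u) * (1 - u)) u := by
  have h1 : HasDerivAt (fun y : ℝ => 2 - y) (-1) u := by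
    simpa using (hasDerivAt_id' u).const_sub 2
  have h2 := h1.fun_pow 2
  have h3 : HasDerivAt (fun y : ℝ => 2 * y - 1) 2 u := by
    simpa using ((hasDerivAt_id' u).const_mul 2).sub_const 1
  have h4 := h2.fun_mul h3
  refine h4.congr_deriv ?_
  push_cast
  ring

lemma glue {f : ℝ → ℝ} {c a : ℝ} (hl : HasDerivWithinAt f c (Iic a) a)
    (hr : HasDerivWithinAt f c (Ici a) a) : HasDerivAt f c a := by
  have := hl.union hr
  rwa [Iic_union_Ici, hasDerivWithinAt_univ] at this

lemma hasDerivAt_zeta (u : ℝ) : HasDerivAt zeta (zeta' u) u := by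
  rcases lt_trichotomy u 1 with h | h | h
  · have h0 : zeta' u = 0 := by simp [zeta', h.le]
    rw [h0]
    refine (hasDerivAt_const u (1 : ℝ)).congr_of_eventuallyEq ?_
    filter_upwards [Iio_mem_nhds h] with y hy
    have hy' : y < 1 := hy
    simp [zeta, hy'.le]
  · subst h
    have h0 : zeta' 1 = 0 := by simp [zeta']
    rw [h0]
    apply glue
    · refine (hasDerivWithinAt_const (1 : ℝ) (Iic 1) (1 : ℝ)).congr ?_ ?_
      · intro y hy
        have hy' : y ≤ 1 := hy
        simp [zeta, hy']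
      · simp [zeta]
    · have hp := (hasDerivAt_poly 1).hasDerivWithinAt (s := Ici 1)
      have e : (6 : ℝ) * (2 - 1) * (1 - 1) = 0 := by norm_num
      rw [e] at hp
      refine hp.congr_of_eventuallyEq ?_ ?_
      · filter_upwards [Icc_mem_nhdsGE (show (1 : ℝ) < 2 by norm_num)] with y hy
        by_cases hy1 : y ≤ 1
        · have : y = 1 := le_antisymm hy1 hy.1
          subst this
          simp [zeta]
          norm_num
        · simp [zeta, hy1, hy.2]
      · simp [zeta]
        norm_num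
  · rcases lt_trichotomy u 2 with h2 | h2 | h2
    · have h0 : zeta' u = 6 * (2 - u) * (1 - u) := by simp [zeta', not_le.mpr h, h2.le]
      rw [h0]
      refine (hasDerivAt_poly u).congr_of_eventuallyEq ?_
      filter_upwards [Ioo_mem_nhds h h2] with y hy
      simp [zeta, not_le.mpr hy.1, hy.2.le]
    · subst h2
      have h0 : zeta' 2 = 0 := by simp [zeta']
      rw [h0]
      apply glue
      · have hp := (hasDerivAt_poly 2).hasDerivWithinAt (s := Iic 2)
        have e : (6 : ℝ) * (2 - 2) * (1 - 2) = 0 := by norm_num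
        rw [e] at hp
        refine hp.congr_of_eventuallyEq ?_ ?_
        · filter_upwards [Icc_mem_nhdsLE (show (1 : ℝ) < 2 by norm_num)] with y hy
          by_cases hy1 : y ≤ 1
          · have : y = 1 := le_antisymm hy1 hy.1
            subst this
            simp [zeta]
            norm_num
          · simp [zeta, hy1, hy.2]
        · simp [zeta]
      · refine (hasDerivWithinAt_const (2 : ℝ) (Ici 2) (0 : ℝ)).congr ?_ ?_
        · intro y hy
          have hy' : (2 : ℝ) ≤ y := hy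
          by_cases hy2 : y ≤ 2
          · have : y = 2 := le_antisymm hy2 hy'
            subst this
            simp [zeta]
          · have hy1 : ¬ y ≤ 1 := by
              intro h3
              linarith
            simp [zeta, hy1, hy2]
        · simp [zeta]
    · have h0 : zeta' u = 0 := by
        simp [zeta', not_le.mpr h, not_le.mpr h2]
      rw [h0]
      refine (hasDerivAt_const u (0 : ℝ)).congr_of_eventuallyEq ?_
      filter_upwards [Ioi_mem_nhds h2] with y hy
      have hy' : (2 : ℝ) < y := hy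
      have hy1 : ¬ y ≤ 1 := by
        intro h3
        linarith
      simp [zeta, hy1, not_le.mpr hy']

lemma zeta_nonneg (u : ℝ) : 0 ≤ zeta u := by
  unfold zeta
  split_ifs with h1 h2
  · norm_num
  · have : 0 ≤ 2 * u - 1 := by
      push_neg at h1
      linarith
    positivity
  · exact le_rfl

lemma zeta_le_one (u : ℝ) : zeta u ≤ 1 := by
  unfold zeta
  split_ifs with h1 h2
  · exact le_rfl
  · push_neg at h1
    have h3 : 0 ≤ (u - 1) ^ 2 * (5 - 2 * u) := by
      have : 0 ≤ 5 - 2 * u := by linarith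
      positivity
    nlinarith
  · norm_num

lemma zeta'_nonpos (u : ℝ) : zeta' u ≤ 0 := by
  unfold zeta'
  split_ifs with h1 h2
  · exact le_rfl
  · push_neg at h1
    have h3 : 0 ≤ 2 - u := by linarith
    have h4 : 0 ≤ u - 1 := by linarith
    nlinarith [mul_nonneg h3 h4]
  · exact le_rfl

lemma abs_zeta'_le (u : ℝ) : |zeta' u| ≤ 3 / 2 := by
  unfold zeta'
  split_ifs with h1 h2
  · norm_num
  · push_neg at h1
    have h3 : 0 ≤ 2 - u := by linarith
    have h4 : 0 ≤ u - 1 := by linarith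
    have h5 : 6 * (2 - u) * (1 - u) ≤ 0 := by nlinarith [mul_nonneg h3 h4]
    rw [abs_of_nonpos h5]
    nlinarith [sq_nonneg (u - 3 / 2)]
  · norm_num

/-- The cut in the variable `g`. -/
def beta (B g : ℝ) : ℝ := zeta (g ^ 2 / B ^ 2)

/-- Derivative of the cut. -/
def beta' (B g : ℝ) : ℝ := zeta' (g ^ 2 / B ^ 2) * (2 * g / B ^ 2)

lemma hasDerivAt_beta (B g : ℝ) : HasDerivAt (beta B) (beta' B g) g := by
  have h1 : HasDerivAt (fun y : ℝ => y ^ 2 / B ^ 2) (2 * g / B ^ 2) g := by
    have := ((hasDerivAt_id' g).fun_pow 2).div_const (B ^ 2)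
    refine this.congr_deriv ?_
    push_cast
    ring
  exact (hasDerivAt_zeta (g ^ 2 / B ^ 2)).comp g h1

section

variable {B g : ℝ}

lemma beta_nonneg : 0 ≤ beta B g := zeta_nonneg _

lemma beta_le_one : beta B g ≤ 1 := zeta_le_one _

lemma beta_eq_one (hB : 0 < B) (h : g ^ 2 ≤ B ^ 2) : beta B g = 1 := by
  have : g ^ 2 / B ^ 2 ≤ 1 := by
    rw [div_le_one (by positivity)]
    exact h
  simp [beta, zeta, this]

lemma beta'_eq_zero (hB : 0 < B) (h : g ^ 2 ≤ B ^ 2) : beta' B g = 0 := by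
  have : g ^ 2 / B ^ 2 ≤ 1 := by
    rw [div_le_one (by positivity)]
    exact h
  simp [beta', zeta', this]

lemma beta_eq_zero (hB : 0 < B) (h : 2 * B ^ 2 ≤ g ^ 2) : beta B g = 0 := by
  have hB2 : 0 < B ^ 2 := by positivity
  have h1 : 2 ≤ g ^ 2 / B ^ 2 := by
    rw [le_div_iff₀ hB2]
    exact h
  unfold beta zeta
  split_ifs with h2 h3
  · linarith
  · have : g ^ 2 / B ^ 2 = 2 := le_antisymm h3 h1
    rw [this]
    norm_num
  · rfl

lemma beta'_eq_zero_of_large (hB : 0 < B) (h : 2 * B ^ 2 ≤ g ^ 2) : beta' B g = 0 := by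
  have hB2 : 0 < B ^ 2 := by positivity
  have h1 : 2 ≤ g ^ 2 / B ^ 2 := by
    rw [le_div_iff₀ hB2]
    exact h
  unfold beta' zeta'
  split_ifs with h2 h3
  · simp
  · have : g ^ 2 / B ^ 2 = 2 := le_antisymm h3 h1
    rw [this]
    norm_num
  · simp

lemma beta'_mul_nonpos (hB : 0 < B) : beta' B g * g ≤ 0 := by
  unfold beta'
  have h1 := zeta'_nonpos (g ^ 2 / B ^ 2)
  have h2 : 0 ≤ 2 * g / B ^ 2 * g := by
    have : 2 * g / B ^ 2 * g = 2 * g ^ 2 / B ^ 2 := by ring
    rw [this]
    positivity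
  calc zeta' (g ^ 2 / B ^ 2) * (2 * g / B ^ 2) * g
      = zeta' (g ^ 2 / B ^ 2) * (2 * g / B ^ 2 * g) := by ring
    _ ≤ 0 := mul_nonpos_of_nonpos_of_nonneg h1 h2

lemma abs_beta'_le (hB : 0 < B) : |beta' B g| ≤ 3 * |g| / B ^ 2 := by
  unfold beta'
  rw [abs_mul]
  have h1 := abs_zeta'_le (g ^ 2 / B ^ 2)
  have h2 : |2 * g / B ^ 2| = 2 * |g| / B ^ 2 := by
    rw [abs_div, abs_mul, abs_of_pos (show (0 : ℝ) < 2 by norm_num), abs_of_pos (show 0 < B ^ 2 by positivity)]
  rw [h2]
  have h3 : 0 ≤ 2 * |g| / B ^ 2 := by positivity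
  calc |zeta' (g ^ 2 / B ^ 2)| * (2 * |g| / B ^ 2) ≤ 3 / 2 * (2 * |g| / B ^ 2) :=
        mul_le_mul_of_nonneg_right h1 h3
    _ = 3 * |g| / B ^ 2 := by ring

end

end

end Vale.Agent.P072
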