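import Vale.Agent.P072.Fibre

/-!
Far from the origin of the stoichiometric class, one of two independent reaction vectors
sees a large value of `⟨log x, v⟩`.
-/

namespace Vale.Agent.P072

open Finset

noncomputable section

variable {d : ℕ}

lemma exists_minor {v v' : Fin d → ℝ}
    (hind : ∀ a b : ℝ, (∀ i, a * v i + b * v' i = 0) → a = 0 ∧ b = 0) :
    ∃ i j, v i * v' j - v j * v' i ≠ 0 := by
  by_contra hcon
  push_neg at hcon
  by_cases hv' : ∃ j, v' j ≠ 0
  · obtain ⟨j, hj⟩ := hv'
    have h := hind 1 (-(v j / v' j)) (fun i => by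
      have h1 := hcon i j
      field_simp
      linarith)
    exact one_ne_zero h.1
  · push_neg at hv'
    have h := hind 0 1 (fun i => by rw [hv' i]; ring)
    exact one_ne_zero h.2

lemma coeff_bound {v v' : Fin d → ℝ}
    (hind : ∀ a b : ℝ, (∀ i, a * v i + b * v' i = 0) → a = 0 ∧ b = 0) :
    ∃ K : ℝ, 0 ≤ K ∧ ∀ a b W : ℝ, (∀ i, |a * v i + b * v' i| ≤ W) → |a| + |b| ≤ K * W := by
  obtain ⟨i, j, hΔ⟩ := exists_minor hind
  set Δ := v i * v' j - v j * v' i with hΔdef
  have hΔ0 : 0 < |Δ| := abs_pos.mpr hΔ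
  refine ⟨(|v' j| + |v' i| + |v i| + |v j|) / |Δ|, by positivity, ?_⟩
  intro a b W hW
  have h1 := hW i
  have h2 := hW j
  have ea : a * Δ = (a * v i + b * v' i) * v' j - (a * v j + b * v' j) * v' i := by
    rw [hΔdef]; ring
  have eb : b * Δ = v i * (a * v j + b * v' j) - v j * (a * v i + b * v' i) := by
    rw [hΔdef]; ring
  have ha : |a| * |Δ| ≤ W * (|v' j| + |v' i|) := by
    rw [← abs_mul, ea]
    calc _ ≤ |(a * v i + b * v' i) * v' j| + |(a * v j + b * v' j) * v' i| := abs_sub _ _
      _ = |a * v i + b * v' i| * |v' j| + |a * v j + b * v' j| * |v' i| := by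
          rw [abs_mul, abs_mul]
      _ ≤ W * |v' j| + W * |v' i| :=
          add_le_add (mul_le_mul_of_nonneg_right h1 (abs_nonneg _))
            (mul_le_mul_of_nonneg_right h2 (abs_nonneg _))
      _ = _ := by ring
  have hb : |b| * |Δ| ≤ W * (|v i| + |v j|) := by
    rw [← abs_mul, eb]
    calc _ ≤ |v i * (a * v j + b * v' j)| + |v j * (a * v i + b * v' i)| := abs_sub _ _
      _ = |v i| * |a * v j + b * v' j| + |v j| * |a * v i + b * v' i| := by
          rw [abs_mul, abs_mul]
      _ ≤ |v i| * W + |v j| * W :=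
          add_le_add (mul_le_mul_of_nonneg_left h2 (abs_nonneg _))
            (mul_le_mul_of_nonneg_left h1 (abs_nonneg _))
      _ = _ := by ring
  have hsum : (|a| + |b|) * |Δ| ≤ W * (|v' j| + |v' i| + |v i| + |v j|) := by
    nlinarith
  have e : (|v' j| + |v' i| + |v i| + |v j|) / |Δ| * W
      = W * (|v' j| + |v' i| + |v i| + |v j|) / |Δ| := by ring
  rw [e, le_div_iff₀ hΔ0]
  exact hsum

/-- The far-out lemma. -/
theorem far_out {v v' c : Fin d → ℝ} (hc : ∀ i, 0 < c i)
    (hind : ∀ a b : ℝ, (∀ i, a * v i + b * v' i = 0) → a = 0 ∧ b = 0) (D : ℝ) (hD : 0 ≤ D) :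
    ∃ R : ℝ, ∀ x : Fin d → ℝ, (∀ i, 0 < x i) → (∃ a b : ℝ, ∀ i, x i - c i = a * v i + b * v' i) →
      |ip (lg x) v| ≤ D → |ip (lg x) v'| ≤ D → ∀ i, x i ≤ R := by
  obtain ⟨K, hK0, hK⟩ := coeff_bound hind
  set cb := ∑ i, c i + 1 with hcb
  set Lc := ∑ i, |Real.log (c i)| with hLc
  have hLc0 : 0 ≤ Lc := Finset.sum_nonneg fun i _ => abs_nonneg _
  have hcb1 : 1 ≤ cb := by
    have : 0 ≤ ∑ i, c i := Finset.sum_nonneg fun i _ => (hc i).le
    rw [hcb]; linarith
  have hcbi : ∀ i, c i ≤ cb := fun i => by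
    have h1 : c i ≤ ∑ i, c i :=
      Finset.single_le_sum (f := c) (fun j _ => (hc j).le) (Finset.mem_univ i)
    rw [hcb]; linarith
  set Q := 4 * (K * D + Lc) with hQ
  refine ⟨max (2 * cb) (cb * Real.exp Q), ?_⟩
  rintro x hx ⟨a, b, hw⟩ h1 h2 i0
  obtain ⟨j, _, hj⟩ := Finset.univ.exists_max_image x ⟨i0, Finset.mem_univ _⟩
  have hj' : ∀ i, x i ≤ x j := fun i => hj i (Finset.mem_univ i)
  set X := x j with hX
  suffices hs : X ≤ max (2 * cb) (cb * Real.exp Q) from le_trans (hj' i0) hs
  by_cases hXb : X ≤ 2 * cb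
  · exact le_max_of_le_left hXb
  push_neg at hXb
  apply le_max_of_le_right
  have hX0 : 0 < X := lt_of_lt_of_le (by linarith) hXb.le
  set W := X + cb with hWdef
  have hw1 : ∀ i, |a * v i + b * v' i| ≤ W := fun i => by
    rw [← hw i, abs_le]
    have h3 := hj' i
    have h4 := hcbi i
    have h5 := hx i
    have h6 := hc i
    constructor <;> linarith
  have hab := hK a b W hw1
  have hW0 : 0 ≤ W := by rw [hWdef]; linarith
  -- the two pairings
  have e1 : ip (lg x) (fun i => x i - c i) = a * ip (lg x) v + b * ip (lg x) v' := by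
    unfold ip
    rw [Finset.mul_sum, Finset.mul_sum, ← Finset.sum_add_distrib]
    apply Finset.sum_congr rfl
    intro i _
    show lg x i * (x i - c i) = _
    rw [hw i]
    ring
  have e1b : ip (lg x) (fun i => x i - c i) ≤ K * D * W := by
    rw [e1]
    have h3 : a * ip (lg x) v ≤ |a| * D := by
      calc a * ip (lg x) v ≤ |a * ip (lg x) v| := le_abs_self _
        _ = |a| * |ip (lg x) v| := abs_mul _ _
        _ ≤ |a| * D := mul_le_mul_of_nonneg_left h1 (abs_nonneg _)
    have h4 : b * ip (lg x) v' ≤ |b| * D := by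
      calc b * ip (lg x) v' ≤ |b * ip (lg x) v'| := le_abs_self _
        _ = |b| * |ip (lg x) v'| := abs_mul _ _
        _ ≤ |b| * D := mul_le_mul_of_nonneg_left h2 (abs_nonneg _)
    have h5 : (|a| + |b|) * D ≤ K * W * D := mul_le_mul_of_nonneg_right hab hD
    nlinarith
  have e2 : -ip (lg c) (fun i => x i - c i) ≤ Lc * W := by
    unfold ip lg
    rw [← Finset.sum_neg_distrib, hLc, Finset.sum_mul]
    apply Finset.sum_le_sum
    intro i _
    have h3 := hw1 i
    rw [← hw i] at h3
    calc -(Real.log (c i) * (x i - c i)) ≤ |Real.log (c i) * (x i - c i)| := neg_le_abs _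
      _ = |Real.log (c i)| * |x i - c i| := abs_mul _ _
      _ ≤ |Real.log (c i)| * W := mul_le_mul_of_nonneg_left h3 (abs_nonneg _)
  have hterm : ∀ i, 0 ≤ (x i - c i) * (Real.log (x i) - Real.log (c i)) := fun i => by
    rcases le_total (c i) (x i) with h | h
    · exact mul_nonneg (by linarith) (by linarith [Real.log_le_log (hc i) h])
    · exact mul_nonneg_of_nonpos_of_nonpos (by linarith) (by linarith [Real.log_le_log (hx i) h])
  have e3 : ∑ i, (x i - c i) * (Real.log (x i) - Real.log (c i))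
      = ip (lg x) (fun i => x i - c i) - ip (lg c) (fun i => x i - c i) := by
    unfold ip lg
    rw [← Finset.sum_sub_distrib]
    exact Finset.sum_congr rfl fun i _ => by ring
  have e4 : (x j - c j) * (Real.log (x j) - Real.log (c j))
      ≤ ∑ i, (x i - c i) * (Real.log (x i) - Real.log (c i)) :=
    Finset.single_le_sum (f := fun i => (x i - c i) * (Real.log (x i) - Real.log (c i)))
      (fun i _ => hterm i) (Finset.mem_univ j)
  have e5 : (X - c j) * (Real.log X - Real.log (c j)) ≤ (K * D + Lc) * W := by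
    rw [e3] at e4
    nlinarith
  -- now the elementary estimate
  have hcb0 : 0 < cb := by linarith
  have hcj := hcbi j
  have hcj0 := hc j
  have hlog1 : Real.log (c j) ≤ Real.log cb := Real.log_le_log hcj0 hcj
  have hlog2 : Real.log cb ≤ Real.log X := Real.log_le_log hcb0 (by linarith)
  have h7 : X / 2 * (Real.log X - Real.log cb) ≤ (X - c j) * (Real.log X - Real.log (c j)) := by
    apply mul_le_mul
    · linarith
    · linarith
    · linarith
    · linarith
  have h8 : (K * D + Lc) * W ≤ (K * D + Lc) * (2 * X) := by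
    apply mul_le_mul_of_nonneg_left
    · rw [hWdef]; linarith
    · positivity
  have h9 : X / 2 * (Real.log X - Real.log cb) ≤ X / 2 * Q := by
    rw [hQ]
    nlinarith
  have h10 : Real.log X - Real.log cb ≤ Q := le_of_mul_le_mul_left h9 (by linarith)
  have h11 : Real.log X ≤ Real.log (cb * Real.exp Q) := by
    rw [Real.log_mul hcb0.ne' (Real.exp_pos _).ne', Real.log_exp]
    linarith
  exact (Real.log_le_log_iff hX0 (by positivity)).mp h11

/-- With rank at most two, two independent vectors in the span span it. -/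
lemma mem_pair_of_rank_le {ι : Type} {w : ι → Fin d → ℝ}
    (hrank : Module.finrank ℝ (Submodule.span ℝ (Set.range w)) ≤ 2) {r r' : ι}
    (hind : ∀ a b : ℝ, (∀ i, a * w r i + b * w r' i = 0) → a = 0 ∧ b = 0)
    {u : Fin d → ℝ} (hu : u ∈ Submodule.span ℝ (Set.range w)) :
    ∃ a b : ℝ, ∀ i, u i = a * w r i + b * w r' i := by
  have li : LinearIndependent ℝ ![w r, w r'] := by
    rw [LinearIndependent.pair_iff]
    intro a b h
    exact hind a b (fun i => by
      have := congrFun h i
      simpa using this)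
  have hP : Submodule.span ℝ (Set.range ![w r, w r']) ≤ Submodule.span ℝ (Set.range w) := by
    apply Submodule.span_mono
    rintro y ⟨q, rfl⟩
    fin_cases q
    · exact ⟨r, rfl⟩
    · exact ⟨r', rfl⟩
  have hdim : Module.finrank ℝ (Submodule.span ℝ (Set.range ![w r, w r'])) = 2 := by
    simpa using finrank_span_eq_card li
  have hEq := Submodule.eq_of_le_of_finrank_le hP (by rw [hdim]; exact hrank)
  rw [← hEq] at hu
  have hrange : Set.range ![w r, w r'] = {w r, w r'} := by
    simp [Matrix.range_cons, Set.pair_comm]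
  rw [hrange, Submodule.mem_span_pair] at hu
  obtain ⟨a, b, h⟩ := hu
  refine ⟨a, b, fun i => ?_⟩
  rw [← h]
  simp

end

end Vale.Agent.P072
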