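import Vale.Agent.P072.Network

/-!
Entropy, and the entropy minimised along a line `x + τ s`.
-/

namespace Vale.Agent.P072

open Finset Filter Topology

noncomputable section

variable {d : ℕ}

/-- One-variable entropy. -/
def ent (a : ℝ) : ℝ := a * Real.log a - a

/-- Entropy of a vector. -/
def V (x : Fin d → ℝ) : ℝ := ∑ i, ent (x i)

/-- Coordinatewise logarithm. -/
def lg (x : Fin d → ℝ) : Fin d → ℝ := fun i => Real.log (x i)

lemma ip_comm (p u : Fin d → ℝ) : ip p u = ip u p := by
  unfold ip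
  exact Finset.sum_congr rfl fun i _ => mul_comm _ _

lemma ent_gibbs {a b : ℝ} (ha : 0 < a) (hb : 0 < b) : ent b + Real.log b * (a - b) ≤ ent a := by
  unfold ent
  have h1 := Real.log_le_sub_one_of_pos (div_pos hb ha)
  rw [Real.log_div hb.ne' ha.ne'] at h1
  have h2 : a * (Real.log b - Real.log a) ≤ a * (b / a - 1) := mul_le_mul_of_nonneg_left h1 ha.le
  have h3 : a * (b / a - 1) = b - a := by field_simp
  nlinarith

lemma gibbs {x w : Fin d → ℝ} (hx : ∀ i, 0 < x i) (hw : ∀ i, 0 < w i) :
    V x + ip (lg x) (fun i => w i - x i) ≤ V w := by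
  unfold V ip lg
  rw [← Finset.sum_add_distrib]
  exact Finset.sum_le_sum fun i _ => ent_gibbs (hw i) (hx i)

lemma hasDerivAt_ent {a : ℝ} (ha : 0 < a) : HasDerivAt ent (Real.log a) a := by
  unfold ent
  have h1 : HasDerivAt (fun y => y * Real.log y) (1 * Real.log a + a * a⁻¹) a :=
    (hasDerivAt_id' a).mul (Real.hasDerivAt_log ha.ne')
  have h2 := h1.sub (hasDerivAt_id' a)
  have e : 1 * Real.log a + a * a⁻¹ - 1 = Real.log a := by
    rw [mul_inv_cancel₀ ha.ne']; ring
  rw [e] at h2
  exact h2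

/-- Derivative of the entropy along a curve. -/
lemma hasDerivWithinAt_V {x : ℝ → Fin d → ℝ} {u : Fin d → ℝ} {D : Set ℝ} {t : ℝ}
    (hx : ∀ i, 0 < x t i) (hd : HasDerivWithinAt x u D t) :
    HasDerivWithinAt (fun t' => V (x t')) (ip (lg (x t)) u) D t := by
  unfold V ip lg
  have hd' := hasDerivWithinAt_pi.mp hd
  have := HasDerivWithinAt.fun_sum (u := Finset.univ) (A := fun i t' => ent (x t' i))
    (A' := fun i => Real.log (x t i) * u i) (s := D) (x := t)
    (fun i _ => by
      have h := (hasDerivAt_ent (hx i)).comp_hasDerivWithinAt t (hd' i)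
      exact h)
  exact this

/-- Derivative of the entropy at a translated curve. -/
lemma hasDerivWithinAt_V_shift {x : ℝ → Fin d → ℝ} {u z : Fin d → ℝ} {D : Set ℝ} {t : ℝ}
    (hz : ∀ i, 0 < z i) (hd : HasDerivWithinAt x u D t) :
    HasDerivWithinAt (fun t' => V (fun i => z i + (x t' i - x t i))) (ip (lg z) u) D t := by
  have hd' : HasDerivWithinAt (fun t' i => z i + (x t' i - x t i)) u D t := by
    rw [hasDerivWithinAt_pi]
    intro i
    have h1 := (hasDerivWithinAt_pi.mp hd) i
    have h2 := (h1.sub_const (x t i)).const_add (z i)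
    exact h2
  have h3 := hasDerivWithinAt_V (x := fun t' i => z i + (x t' i - x t i)) (u := u) (D := D) (t := t)
    (by intro i; simpa using hz i) hd'
  have h4 : (fun i => z i + (x t i - x t i)) = z := by
    funext i; ring
  simp only [h4] at h3
  exact h3

lemma exists_up {s x : Fin d → ℝ} (hs : s ≠ 0) (hx : ∀ i, 0 < x i) :
    ∃ τ : ℝ, 0 ≤ τ ∧ (∀ i, 0 < x i + τ * s i) ∧ 0 ≤ ∑ i, s i * Real.log (x i + τ * s i) := by
  classical
  set K := ∑ i, |s i| * |Real.log (x i)| with hK
  have hK0 : 0 ≤ K := Finset.sum_nonneg fun i _ => by positivity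
  -- the lower bound valid for all admissible τ ≥ 0
  have hterm : ∀ τ : ℝ, 0 ≤ τ → (∀ i, 0 < x i + τ * s i) → ∀ i,
      -(|s i| * |Real.log (x i)|) ≤ s i * Real.log (x i + τ * s i) := by
    intro τ hτ hp i
    rcases le_or_gt 0 (s i) with hsi | hsi
    · have h1 : Real.log (x i) ≤ Real.log (x i + τ * s i) :=
        Real.log_le_log (hx i) (by nlinarith [mul_nonneg hτ hsi])
      have h2 : s i * Real.log (x i) ≤ s i * Real.log (x i + τ * s i) :=
        mul_le_mul_of_nonneg_left h1 hsi
      have h3 : -(|s i| * |Real.log (x i)|) ≤ s i * Real.log (x i) := by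
        rw [← abs_mul]; exact neg_abs_le _
      linarith
    · have h1 : Real.log (x i + τ * s i) ≤ Real.log (x i) :=
        Real.log_le_log (hp i) (by nlinarith [mul_nonneg hτ (le_of_lt (neg_pos.mpr hsi))])
      have h2 : s i * Real.log (x i) ≤ s i * Real.log (x i + τ * s i) :=
        mul_le_mul_of_nonpos_left h1 hsi.le
      have h3 : -(|s i| * |Real.log (x i)|) ≤ s i * Real.log (x i) := by
        rw [← abs_mul]; exact neg_abs_le _
      linarith
  -- if one term is at least K, we are done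
  have hdone : ∀ τ : ℝ, 0 ≤ τ → (∀ i, 0 < x i + τ * s i) → ∀ j,
      K ≤ s j * Real.log (x j + τ * s j) → 0 ≤ ∑ i, s i * Real.log (x i + τ * s i) := by
    intro τ hτ hp j hj
    rw [← Finset.add_sum_erase _ _ (Finset.mem_univ j)]
    have h1 : -∑ i ∈ Finset.univ.erase j, |s i| * |Real.log (x i)|
        ≤ ∑ i ∈ Finset.univ.erase j, s i * Real.log (x i + τ * s i) := by
      rw [← Finset.sum_neg_distrib]
      exact Finset.sum_le_sum fun i _ => hterm τ hτ hp i
    have h2 : ∑ i ∈ Finset.univ.erase j, |s i| * |Real.log (x i)| ≤ K :=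
      Finset.sum_le_sum_of_subset_of_nonneg (Finset.subset_univ _) fun i _ _ => by positivity
    linarith
  by_cases hneg : ∃ i, s i < 0
  · -- case A
    let T : Finset (Fin d) := Finset.univ.filter (fun i => s i < 0)
    have hT : T.Nonempty := by
      obtain ⟨i, hi⟩ := hneg
      exact ⟨i, by simp [T, hi]⟩
    obtain ⟨j, hj, hmin⟩ := T.exists_min_image (fun i => x i / (-s i)) hT
    have hsj : s j < 0 := by simpa [T] using hj
    set a := -s j with ha
    have ha0 : 0 < a := by rw [ha]; linarith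
    set w := min (x j) (Real.exp (-K / a)) with hw
    have hw0 : 0 < w := lt_min (hx j) (Real.exp_pos _)
    have hwx : w ≤ x j := min_le_left _ _
    set τ := (x j - w) / a with hτdef
    have hτ0 : 0 ≤ τ := div_nonneg (by linarith) ha0.le
    have hτlt : τ < x j / a := by
      rw [hτdef]
      exact div_lt_div_of_pos_right (by linarith) ha0
    have hjval : x j + τ * s j = w := by
      rw [hτdef]
      have : s j = -a := by rw [ha]; ring
      rw [this]
      field_simp
      ring
    have hp : ∀ i, 0 < x i + τ * s i := by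
      intro i
      rcases le_or_gt 0 (s i) with hsi | hsi
      · have := hx i
        have := mul_nonneg hτ0 hsi
        linarith
      · have hi : i ∈ T := by simp [T, hsi]
        have h1 := hmin i hi
        have hb : 0 < -s i := by linarith
        have h2 : τ < x i / (-s i) := lt_of_lt_of_le hτlt h1
        rw [lt_div_iff₀ hb] at h2
        nlinarith
    refine ⟨τ, hτ0, hp, hdone τ hτ0 hp j ?_⟩
    rw [hjval]
    have hlog : Real.log w ≤ -K / a := by
      have : w ≤ Real.exp (-K / a) := min_le_right _ _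
      calc Real.log w ≤ Real.log (Real.exp (-K / a)) := Real.log_le_log hw0 this
        _ = -K / a := Real.log_exp _
    have h3 : a * Real.log w ≤ a * (-K / a) := mul_le_mul_of_nonneg_left hlog ha0.le
    have h4 : a * (-K / a) = -K := by field_simp
    have h5 : s j = -a := by rw [ha]; ring
    rw [h5]
    linarith
  · -- case B
    push_neg at hneg
    obtain ⟨j, hj⟩ : ∃ j, s j ≠ 0 := by
      by_contra hcon
      push_neg at hcon
      exact hs (funext hcon)
    have hsj : 0 < s j := lt_of_le_of_ne (hneg j) (Ne.symm hj)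
    set w := max (x j) (Real.exp (K / s j)) with hw
    have hwx : x j ≤ w := le_max_left _ _
    have hw0 : 0 < w := lt_of_lt_of_le (hx j) hwx
    set τ := (w - x j) / s j with hτdef
    have hτ0 : 0 ≤ τ := div_nonneg (by linarith) hsj.le
    have hjval : x j + τ * s j = w := by
      rw [hτdef]
      field_simp
      ring
    have hp : ∀ i, 0 < x i + τ * s i := by
      intro i
      have := hx i
      have := mul_nonneg hτ0 (hneg i)
      linarith
    refine ⟨τ, hτ0, hp, hdone τ hτ0 hp j ?_⟩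
    rw [hjval]
    have hlog : K / s j ≤ Real.log w := by
      have h1 : Real.exp (K / s j) ≤ w := le_max_right _ _
      calc K / s j = Real.log (Real.exp (K / s j)) := (Real.log_exp _).symm
        _ ≤ Real.log w := Real.log_le_log (Real.exp_pos _) h1
    have h3 : s j * (K / s j) ≤ s j * Real.log w := mul_le_mul_of_nonneg_left hlog hsj.le
    have h4 : s j * (K / s j) = K := by field_simp
    linarith

lemma exists_root {s x : Fin d → ℝ} (hs : s ≠ 0) (hx : ∀ i, 0 < x i) :
    ∃ τ : ℝ, (∀ i, 0 < x i + τ * s i) ∧ ∑ i, s i * Real.log (x i + τ * s i) = 0 := by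
  obtain ⟨τ₁, h11, h12, h13⟩ := exists_up hs hx
  have hs' : -s ≠ 0 := neg_ne_zero.mpr hs
  obtain ⟨τ₂, h21, h22, h23⟩ := exists_up hs' hx
  simp only [Pi.neg_apply] at h22 h23
  set τ₀ := -τ₂ with hτ₀
  have h01 : τ₀ ≤ τ₁ := by rw [hτ₀]; linarith
  have hp : ∀ τ ∈ Set.Icc τ₀ τ₁, ∀ i, 0 < x i + τ * s i := by
    intro τ hτ i
    have h1 := h12 i
    have h2 := h22 i
    rcases le_or_gt 0 (s i) with hsi | hsi
    · have h3 : τ₀ * s i ≤ τ * s i := mul_le_mul_of_nonneg_right hτ.1 hsi
      have h4 : τ₀ * s i = τ₂ * (-s i) := by rw [hτ₀]; ring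
      linarith
    · have h3 : τ₁ * s i ≤ τ * s i := mul_le_mul_of_nonpos_right hτ.2 hsi.le
      linarith
  have hcont : ContinuousOn (fun τ => ∑ i, s i * Real.log (x i + τ * s i)) (Set.Icc τ₀ τ₁) := by
    apply continuousOn_finset_sum
    intro i _
    apply ContinuousOn.mul continuousOn_const
    apply ContinuousOn.log
    · fun_prop
    · intro τ hτ
      exact (hp τ hτ i).ne'
  have hend : ∑ i, s i * Real.log (x i + τ₀ * s i) ≤ 0 := by
    have h5 : ∑ i, s i * Real.log (x i + τ₀ * s i) = -∑ i, -s i * Real.log (x i + τ₂ * -s i) := by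
      rw [← Finset.sum_neg_distrib]
      apply Finset.sum_congr rfl
      intro i _
      have : τ₀ * s i = τ₂ * -s i := by rw [hτ₀]; ring
      rw [this]
      ring
    rw [h5]
    linarith
  have hmem : (0 : ℝ) ∈ Set.Icc (∑ i, s i * Real.log (x i + τ₀ * s i))
      (∑ i, s i * Real.log (x i + τ₁ * s i)) := ⟨hend, h13⟩
  obtain ⟨τ, hτ, he⟩ := intermediate_value_Icc h01 hcont hmem
  exact ⟨τ, hp τ hτ, he⟩

/-- The chosen root. -/
def tauF (s x : Fin d → ℝ) : ℝ :=
  Classical.epsilon fun τ : ℝ => (∀ i, 0 < x i + τ * s i) ∧ ∑ i, s i * Real.log (x i + τ * s i) = 0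

/-- The point of the line through `x` in direction `s` where the entropy is smallest. -/
def zF (s x : Fin d → ℝ) : Fin d → ℝ := fun i => x i + tauF s x * s i

/-- Entropy at `zF`. -/
def Vt (s x : Fin d → ℝ) : ℝ := V (zF s x)

lemma zF_spec {s x : Fin d → ℝ} (hs : s ≠ 0) (hx : ∀ i, 0 < x i) :
    (∀ i, 0 < zF s x i) ∧ ip (lg (zF s x)) s = 0 := by
  have h := Classical.epsilon_spec (exists_root hs hx)
  refine ⟨h.1, ?_⟩
  rw [ip_comm]
  exact h.2

lemma ip_add_smul (p u s : Fin d → ℝ) (c : ℝ) (hp : ip p s = 0) :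
    ip p (fun i => u i + c * s i) = ip p u := by
  have : ip p (fun i => u i + c * s i) = ip p u + c * ip p s := by
    unfold ip
    rw [Finset.mul_sum, ← Finset.sum_add_distrib]
    exact Finset.sum_congr rfl fun i _ => by ring
  rw [this, hp]
  ring

lemma Vt_lower {s x x' : Fin d → ℝ} (hs : s ≠ 0) (hx : ∀ i, 0 < x i) (hx' : ∀ i, 0 < x' i) :
    Vt s x + ip (lg (zF s x)) (fun i => x' i - x i) ≤ Vt s x' := by
  obtain ⟨hz, hzs⟩ := zF_spec hs hx
  obtain ⟨hz', _⟩ := zF_spec hs hx'
  have h := gibbs hz hz'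
  have h2 : (fun i => zF s x' i - zF s x i)
      = fun i => (x' i - x i) + (tauF s x' - tauF s x) * s i := by
    funext i
    simp only [zF]
    ring
  rw [h2, ip_add_smul _ _ _ _ hzs] at h
  exact h

lemma Vt_upper {s x x' : Fin d → ℝ} (hs : s ≠ 0) (hx' : ∀ i, 0 < x' i)
    (hpos : ∀ i, 0 < zF s x i + (x' i - x i)) :
    Vt s x' ≤ V (fun i => zF s x i + (x' i - x i)) := by
  obtain ⟨hz', hzs'⟩ := zF_spec hs hx'
  have h := gibbs hz' hpos
  have h2 : (fun i => zF s x i + (x' i - x i) - zF s x' i)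
      = fun i => (0 : ℝ) + (tauF s x - tauF s x') * s i := by
    funext i
    simp only [zF]
    ring
  rw [h2, ip_add_smul _ _ _ _ hzs'] at h
  have h3 : ip (lg (zF s x')) (fun _ => (0 : ℝ)) = 0 := by
    unfold ip
    simp
  rw [h3] at h
  unfold Vt
  linarith

/-- Squeeze for derivatives. -/
lemma squeeze_deriv {f l u : ℝ → ℝ} {a t : ℝ} {D : Set ℝ} (hl : HasDerivWithinAt l a D t)
    (hu : HasDerivWithinAt u a D t) (hlt : l t = f t) (hut : u t = f t)
    (h1 : ∀ᶠ t' in 𝓝[D] t, l t' ≤ f t') (h2 : ∀ᶠ t' in 𝓝[D] t, f t' ≤ u t') :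
    HasDerivWithinAt f a D t := by
  rw [hasDerivWithinAt_iff_isLittleO] at hl hu ⊢
  rw [Asymptotics.isLittleO_iff] at hl hu ⊢
  intro c hc
  filter_upwards [hl hc, hu hc, h1, h2] with t' h3 h4 h5 h6
  rw [Real.norm_eq_abs, abs_le] at *
  rw [hlt] at h3
  rw [hut] at h4
  simp only [smul_eq_mul, Real.norm_eq_abs] at *
  constructor <;> linarith [h3.1, h3.2, h4.1, h4.2]

/-- Derivative of the fibre entropy along a curve. -/
lemma hasDerivWithinAt_Vt {s : Fin d → ℝ} (hs : s ≠ 0) {x : ℝ → Fin d → ℝ} {u : Fin d → ℝ}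
    {D : Set ℝ} {t : ℝ} (hxD : ∀ t' ∈ D, ∀ i, 0 < x t' i) (ht : t ∈ D)
    (hd : HasDerivWithinAt x u D t) :
    HasDerivWithinAt (fun t' => Vt s (x t')) (ip (lg (zF s (x t))) u) D t := by
  obtain ⟨hz, _⟩ := zF_spec hs (hxD t ht)
  set z := zF s (x t) with hzdef
  have hl : HasDerivWithinAt (fun t' => Vt s (x t) + ip (lg z) (fun i => x t' i - x t i))
      (ip (lg z) u) D t := by
    apply HasDerivWithinAt.const_add
    unfold ip
    have hd' := hasDerivWithinAt_pi.mp hd
    apply HasDerivWithinAt.fun_sum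
    intro i _
    exact ((hd' i).sub_const _).const_mul _
  have hu := hasDerivWithinAt_V_shift (x := x) (u := u) (z := z) (D := D) (t := t) hz hd
  refine squeeze_deriv hl hu ?_ ?_ ?_ ?_
  · simp [ip]
  · have h4 : (fun i => z i + (x t i - x t i)) = z := by
      funext i; ring
    simp only [h4]
    rfl
  · filter_upwards [self_mem_nhdsWithin] with t' ht'
    exact Vt_lower hs (hxD t ht) (hxD t' ht')
  · have hev : ∀ᶠ t' in 𝓝[D] t, ∀ i, 0 < z i + (x t' i - x t i) := by
      rw [Filter.eventually_all]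
      intro i
      have hc : ContinuousWithinAt (fun t' => z i + (x t' i - x t i)) D t := by
        have h1 := (hasDerivWithinAt_pi.mp hd i).continuousWithinAt
        exact continuousWithinAt_const.add (h1.sub continuousWithinAt_const)
      have h2 : 0 < z i + (x t i - x t i) := by simpa using hz i
      exact hc.eventually (lt_mem_nhds h2)
    filter_upwards [self_mem_nhdsWithin, hev] with t' ht' hp
    exact Vt_upper hs (hxD t' ht') hp

section bounds

variable {s x : Fin d → ℝ}

lemma E_nonneg (hs : s ≠ 0) (hx : ∀ i, 0 < x i) : Vt s x ≤ V x := by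
  obtain ⟨hz, hzs⟩ := zF_spec hs hx
  have h := gibbs hz hx
  have h2 : (fun i => x i - zF s x i) = fun i => (0 : ℝ) + (-tauF s x) * s i := by
    funext i
    simp only [zF]
    ring
  rw [h2, ip_add_smul _ _ _ _ hzs] at h
  have h3 : ip (lg (zF s x)) (fun _ => (0 : ℝ)) = 0 := by
    unfold ip
    simp
  rw [h3] at h
  unfold Vt
  linarith

/-- The log-difference. -/
def ell (s x : Fin d → ℝ) (i : Fin d) : ℝ := Real.log (zF s x i) - Real.log (x i)

lemma g_eq (hs : s ≠ 0) (hx : ∀ i, 0 < x i) : ip s (lg x) = -∑ i, s i * ell s x i := by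
  obtain ⟨_, hzs⟩ := zF_spec hs hx
  rw [ip_comm] at hzs
  unfold ip lg at *
  unfold ell
  rw [← Finset.sum_neg_distrib]
  have : ∑ i, s i * Real.log (x i)
      = ∑ i, s i * Real.log (x i) - ∑ i, s i * Real.log (zF s x i) := by
    rw [hzs]; ring
  rw [this, ← Finset.sum_sub_distrib]
  exact Finset.sum_congr rfl fun i _ => by ring

lemma E_le (hs : s ≠ 0) (hx : ∀ i, 0 < x i) : V x - Vt s x ≤ -(tauF s x * ip s (lg x)) := by
  obtain ⟨hz, _⟩ := zF_spec hs hx
  have h := gibbs hx hz
  have h2 : ip (lg x) (fun i => zF s x i - x i) = tauF s x * ip s (lg x) := by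
    unfold ip lg zF
    rw [Finset.mul_sum]
    exact Finset.sum_congr rfl fun i _ => by ring
  rw [h2] at h
  unfold Vt
  linarith

lemma tau_ell_nonneg (hs : s ≠ 0) (hx : ∀ i, 0 < x i) (i : Fin d) :
    0 ≤ tauF s x * (s i * ell s x i) := by
  obtain ⟨hz, _⟩ := zF_spec hs hx
  have h1 : zF s x i - x i = tauF s x * s i := by
    simp only [zF]; ring
  have h2 : tauF s x * (s i * ell s x i) = (zF s x i - x i) * (Real.log (zF s x i) - Real.log (x i)) := by
    rw [h1]; unfold ell; ring
  rw [h2]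
  rcases le_total (x i) (zF s x i) with h | h
  · exact mul_nonneg (by linarith) (by linarith [Real.log_le_log (hx i) h])
  · exact mul_nonneg_of_nonpos_of_nonpos (by linarith) (by linarith [Real.log_le_log (hz i) h])

/-- All the terms of `g` have the same sign. -/
lemma abs_g_eq (hs : s ≠ 0) (hx : ∀ i, 0 < x i) :
    |ip s (lg x)| = ∑ i, |s i| * |ell s x i| := by
  have hg := g_eq hs hx
  rw [hg, abs_neg]
  rcases lt_trichotomy (tauF s x) 0 with hτ | hτ | hτ
  · have h1 : ∀ i, s i * ell s x i ≤ 0 := fun i => by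
      have := tau_ell_nonneg hs hx i
      by_contra hcon
      push_neg at hcon
      nlinarith
    rw [abs_of_nonpos (Finset.sum_nonpos fun i _ => h1 i), ← Finset.sum_neg_distrib]
    apply Finset.sum_congr rfl
    intro i _
    rw [← abs_mul, abs_of_nonpos (h1 i)]
  · have h0 : ∀ i, ell s x i = 0 := fun i => by
      unfold ell zF
      rw [hτ]
      simp
    simp [h0]
  · have h1 : ∀ i, 0 ≤ s i * ell s x i := fun i => by
      have := tau_ell_nonneg hs hx i
      by_contra hcon
      push_neg at hcon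
      nlinarith
    rw [abs_of_nonneg (Finset.sum_nonneg fun i _ => h1 i)]
    apply Finset.sum_congr rfl
    intro i _
    rw [← abs_mul, abs_of_nonneg (h1 i)]

lemma abs_ell_le (hs : s ≠ 0) (hx : ∀ i, 0 < x i) (hs1 : ∀ i, s i = 0 ∨ 1 ≤ |s i|) (i : Fin d) :
    |ell s x i| ≤ |ip s (lg x)| := by
  rcases hs1 i with h | h
  · have : ell s x i = 0 := by
      unfold ell zF
      rw [h]
      simp
    rw [this, abs_zero]
    exact abs_nonneg _
  · have h1 : |s i| * |ell s x i| ≤ ∑ j, |s j| * |ell s x j| :=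
      Finset.single_le_sum (f := fun j => |s j| * |ell s x j|)
        (fun j _ => by positivity) (Finset.mem_univ i)
    rw [← abs_g_eq hs hx] at h1
    have h2 : 0 ≤ |ell s x i| := abs_nonneg _
    nlinarith

lemma abs_exp_sub_one_le' (l : ℝ) : |Real.exp l - 1| ≤ |l| * Real.exp |l| := by
  rcases le_total 0 l with h | h
  · rw [abs_of_nonneg h, abs_of_nonneg (by linarith [Real.one_le_exp h])]
    have h1 := Real.add_one_le_exp (-l)
    have h2 : Real.exp (-l) * Real.exp l = 1 := by
      rw [← Real.exp_add]; simp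
    have h3 := Real.exp_pos l
    nlinarith
  · rw [abs_of_nonpos h, abs_of_nonpos (by linarith [Real.exp_le_one_iff.mpr h])]
    have h1 := Real.add_one_le_exp l
    have h2 : 1 ≤ Real.exp (-l) := Real.one_le_exp (by linarith)
    nlinarith

/-- The curvature of the line. -/
def kappa (s x : Fin d → ℝ) : ℝ := ∑ i, s i ^ 2 / x i

lemma kappa_nonneg (hx : ∀ i, 0 < x i) : 0 ≤ kappa s x :=
  Finset.sum_nonneg fun i _ => div_nonneg (by positivity) (hx i).le

lemma tau_kappa_le (hs : s ≠ 0) (hx : ∀ i, 0 < x i) (hs1 : ∀ i, s i = 0 ∨ 1 ≤ |s i|) :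
    |tauF s x| * kappa s x ≤ |ip s (lg x)| * Real.exp |ip s (lg x)| := by
  obtain ⟨hz, _⟩ := zF_spec hs hx
  set g := ip s (lg x) with hg
  have hterm : ∀ i, |tauF s x| * (s i ^ 2 / x i) ≤ (|s i| * |ell s x i|) * Real.exp |g| := by
    intro i
    have h1 : zF s x i / x i = Real.exp (ell s x i) := by
      unfold ell
      rw [Real.exp_sub, Real.exp_log (hz i), Real.exp_log (hx i)]
    have h2 : |tauF s x * s i| / x i = |Real.exp (ell s x i) - 1| := by
      rw [← h1]
      have : zF s x i / x i - 1 = (tauF s x * s i) / x i := by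
        have := (hx i).ne'
        simp only [zF]
        field_simp
        ring
      rw [this, abs_div, abs_of_pos (hx i)]
    have h3 := abs_exp_sub_one_le' (ell s x i)
    have h4 : Real.exp |ell s x i| ≤ Real.exp |g| := Real.exp_le_exp.mpr (abs_ell_le hs hx hs1 i)
    have h5 : |tauF s x * s i| / x i ≤ |ell s x i| * Real.exp |g| := by
      rw [h2]
      calc _ ≤ |ell s x i| * Real.exp |ell s x i| := h3
        _ ≤ _ := mul_le_mul_of_nonneg_left h4 (abs_nonneg _)
    have h6 : |tauF s x| * (s i ^ 2 / x i) = |s i| * (|tauF s x * s i| / x i) := by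
      rw [abs_mul, ← sq_abs (s i)]
      ring
    rw [h6]
    calc |s i| * (|tauF s x * s i| / x i) ≤ |s i| * (|ell s x i| * Real.exp |g|) :=
          mul_le_mul_of_nonneg_left h5 (abs_nonneg _)
      _ = _ := by ring
  unfold kappa
  rw [Finset.mul_sum]
  calc ∑ i, |tauF s x| * (s i ^ 2 / x i) ≤ ∑ i, (|s i| * |ell s x i|) * Real.exp |g| :=
        Finset.sum_le_sum fun i _ => hterm i
    _ = (∑ i, |s i| * |ell s x i|) * Real.exp |g| := by rw [Finset.sum_mul]
    _ = |g| * Real.exp |g| := by rw [hg, abs_g_eq hs hx]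

/-- The product of curvature and entropy gap is controlled by `g`. -/
lemma kappa_E_le (hs : s ≠ 0) (hx : ∀ i, 0 < x i) (hs1 : ∀ i, s i = 0 ∨ 1 ≤ |s i|) :
    kappa s x * (V x - Vt s x) ≤ ip s (lg x) ^ 2 * Real.exp |ip s (lg x)| := by
  have h1 := E_le hs hx
  have h2 := tau_kappa_le hs hx hs1
  have h3 : -(tauF s x * ip s (lg x)) ≤ |tauF s x| * |ip s (lg x)| := by
    rw [← abs_mul]; exact neg_le_abs _
  have hκ := kappa_nonneg (s := s) hx
  have hE : V x - Vt s x ≤ |tauF s x| * |ip s (lg x)| := le_trans h1 h3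
  calc kappa s x * (V x - Vt s x) ≤ kappa s x * (|tauF s x| * |ip s (lg x)|) :=
        mul_le_mul_of_nonneg_left hE hκ
    _ = (|tauF s x| * kappa s x) * |ip s (lg x)| := by ring
    _ ≤ (|ip s (lg x)| * Real.exp |ip s (lg x)|) * |ip s (lg x)| :=
        mul_le_mul_of_nonneg_right h2 (abs_nonneg _)
    _ = ip s (lg x) ^ 2 * Real.exp |ip s (lg x)| := by
        rw [← sq_abs (ip s (lg x))]; ring

/-- `|s_i| ≤ s_i²` gives a first-order bound by the curvature. -/
lemma sum_abs_le_kappa (hx : ∀ i, 0 < x i) (hs1 : ∀ i, s i = 0 ∨ 1 ≤ |s i|) :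
    ∑ i, |s i| / x i ≤ kappa s x := by
  unfold kappa
  apply Finset.sum_le_sum
  intro i _
  apply div_le_div_of_nonneg_right _ (hx i).le
  rcases hs1 i with h | h
  · rw [h]; simp
  · rw [← sq_abs (s i)]
    nlinarith [abs_nonneg (s i)]

end bounds

end

end Vale.Agent.P072
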