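import Vale.Agent.P072.Lyap

/-!
Uniform boundedness of weakly reversible mass-action systems with `dim S ≤ 2`.
-/

namespace Vale.Agent.P072

open Finset Set

noncomputable section

variable {d : ℕ} {ι : Type}

/-- A function with nonpositive derivative above the level `L` stays below `L`. -/
lemma comparison {f f' : ℝ → ℝ} {T L : ℝ}
    (h : ∀ t ∈ Ico (0 : ℝ) T, HasDerivWithinAt f (f' t) (Ico 0 T) t) (h0 : f 0 ≤ L)
    (hd : ∀ t ∈ Ico (0 : ℝ) T, L < f t → f' t ≤ 0) : ∀ t ∈ Ico (0 : ℝ) T, f t ≤ L := by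
  intro t1 ht1
  by_contra hcon
  push_neg at hcon
  have hIcc : Icc 0 t1 ⊆ Ico 0 T := fun t ht => ⟨ht.1, lt_of_le_of_lt ht.2 ht1.2⟩
  have hc : ContinuousOn f (Icc 0 t1) := fun t ht =>
    ((h t (hIcc ht)).continuousWithinAt).mono hIcc
  have hclosed : IsClosed (Icc 0 t1 ∩ f ⁻¹' Iic L) :=
    hc.preimage_isClosed_of_isClosed isClosed_Icc isClosed_Iic
  have hAcpt : IsCompact (Icc 0 t1 ∩ f ⁻¹' Iic L) :=
    isCompact_Icc.of_isClosed_subset hclosed inter_subset_left
  have hAne : (Icc 0 t1 ∩ f ⁻¹' Iic L).Nonempty := ⟨0, ⟨⟨le_rfl, ht1.1⟩, h0⟩⟩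
  set t0 := sSup (Icc 0 t1 ∩ f ⁻¹' Iic L) with ht0def
  have ht0 := hAcpt.sSup_mem hAne
  rw [← ht0def] at ht0
  have ht0le : t0 ≤ t1 := ht0.1.2
  have hft0 : f t0 ≤ L := ht0.2
  have ht0lt : t0 < t1 := lt_of_le_of_ne ht0le (fun e => by
    rw [e] at hft0
    linarith)
  have hgt : ∀ t ∈ Ioc t0 t1, L < f t := by
    intro t ht
    by_contra hn
    push_neg at hn
    have hmem : t ∈ Icc 0 t1 ∩ f ⁻¹' Iic L := ⟨⟨le_trans ht0.1.1 ht.1.le, ht.2⟩, hn⟩
    have := le_csSup hAcpt.bddAbove hmem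
    rw [← ht0def] at this
    linarith [ht.1]
  have hsub : Icc t0 t1 ⊆ Icc 0 t1 := fun t ht => ⟨le_trans ht0.1.1 ht.1, ht.2⟩
  have hder : ∀ t ∈ Ioo t0 t1, HasDerivAt f (f' t) t := by
    intro t ht
    have hmem : t ∈ Ico 0 T := hIcc ⟨le_trans ht0.1.1 ht.1.le, ht.2.le⟩
    exact (h t hmem).hasDerivAt (Ico_mem_nhds (lt_of_le_of_lt ht0.1.1 ht.1) hmem.2)
  have hanti : AntitoneOn f (Icc t0 t1) := by
    apply antitoneOn_of_deriv_nonpos (convex_Icc _ _) (hc.mono hsub)
    · intro t ht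
      rw [interior_Icc] at ht
      exact (hder t ht).differentiableAt.differentiableWithinAt
    · intro t ht
      rw [interior_Icc] at ht
      rw [(hder t ht).deriv]
      have hmem : t ∈ Ico 0 T := hIcc ⟨le_trans ht0.1.1 ht.1.le, ht.2.le⟩
      exact hd t hmem (hgt t ⟨ht.1, ht.2.le⟩)
  have := hanti (left_mem_Icc.mpr ht0le) (right_mem_Icc.mpr ht0le) ht0le
  linarith

lemma ent_ge {a : ℝ} (ha : 0 < a) : -1 ≤ ent a := by
  have h := ent_gibbs ha one_pos
  simp [ent] at h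
  simpa [ent] using h

/-- A bound on the entropy bounds the coordinates. -/
lemma coord_le_of_V_le {w : Fin d → ℝ} (hw : ∀ i, 0 < w i) {L : ℝ} (hL : V w ≤ L) (i : Fin d) :
    w i ≤ max (Real.exp 2) (L + d) := by
  by_cases h : w i ≤ Real.exp 2
  · exact le_max_of_le_left h
  push_neg at h
  apply le_max_of_le_right
  have h1 : 2 ≤ Real.log (w i) := by
    rw [Real.le_log_iff_exp_le (hw i)]
    exact h.le
  have h2 : w i ≤ ent (w i) := by
    unfold ent
    nlinarith [hw i]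
  have h3 : ent (w i) - d ≤ V w := by
    unfold V
    rw [← Finset.add_sum_erase _ _ (Finset.mem_univ i)]
    have h4 : -(d : ℝ) ≤ ∑ j ∈ Finset.univ.erase i, ent (w j) := by
      have h5 : ∑ j ∈ Finset.univ.erase i, (-1 : ℝ) ≤ ∑ j ∈ Finset.univ.erase i, ent (w j) :=
        Finset.sum_le_sum fun j _ => ent_ge (hw j)
      have h6 : ∑ j ∈ Finset.univ.erase i, (-1 : ℝ) = -((Finset.univ.erase i).card : ℝ) := by
        simp
      have h7 : ((Finset.univ.erase i).card : ℝ) ≤ d := by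
        have : (Finset.univ.erase i).card ≤ (Finset.univ : Finset (Fin d)).card :=
          Finset.card_le_card (Finset.erase_subset _ _)
        rw [Finset.card_univ, Fintype.card_fin] at this
        exact_mod_cast this
      linarith
    linarith
  linarith

/-- Entropy on a box. -/
lemma V_le_of_box {w : Fin d → ℝ} (hw : ∀ i, 0 < w i) {R : ℝ} (hR : 1 ≤ R) (hb : ∀ i, w i ≤ R) :
    V w ≤ d * (R * Real.log R) := by
  unfold V
  have h1 : ∀ i, ent (w i) ≤ R * Real.log R := by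
    intro i
    unfold ent
    have hlogR : 0 ≤ Real.log R := Real.log_nonneg hR
    have h2 := hw i
    rcases le_total (w i) 1 with h | h
    · have h3 : Real.log (w i) ≤ 0 := Real.log_nonpos h2.le h
      have h4 : w i * Real.log (w i) ≤ 0 := mul_nonpos_of_nonneg_of_nonpos h2.le h3
      have h5 : 0 ≤ R * Real.log R := by positivity
      linarith
    · have h3 : Real.log (w i) ≤ Real.log R := Real.log_le_log h2 (hb i)
      have h4 : 0 ≤ Real.log (w i) := Real.log_nonneg h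
      have h5 : w i * Real.log (w i) ≤ R * Real.log R := mul_le_mul (hb i) h3 h4 (by linarith)
      linarith
  calc ∑ i, ent (w i) ≤ ∑ _i : Fin d, R * Real.log R := Finset.sum_le_sum fun i _ => h1 i
    _ = d * (R * Real.log R) := by simp

section par

variable (src tgt : ι → Fin d → ℕ)

/-- Parallelism of reaction vectors. -/
def Par (r r' : ι) : Prop := ∃ ρ : ℝ, ρ ≠ 0 ∧ ∀ i, vec src tgt r i = ρ * vec src tgt r' i

/-- The setoid of parallelism classes. -/
def parSetoid : Setoid ι where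
  r := Par src tgt
  iseqv := by
    refine ⟨fun r => ⟨1, one_ne_zero, fun i => by ring⟩, ?_, ?_⟩
    · rintro r r' ⟨ρ, h, e⟩
      exact ⟨ρ⁻¹, inv_ne_zero h, fun i => by
        rw [e i, ← mul_assoc, inv_mul_cancel₀ h, one_mul]⟩
    · rintro r r' r'' ⟨ρ, h, e⟩ ⟨ρ', h', e'⟩
      exact ⟨ρ * ρ', mul_ne_zero h h', fun i => by rw [e i, e' i, mul_assoc]⟩

/-- The parallelism classes. -/
abbrev PClass := Quotient (parSetoid src tgt)

/-- The direction of a parallelism class. -/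
def sj (j : PClass src tgt) : Fin d → ℝ := vec src tgt j.out

lemma vec_int (r : ι) (i : Fin d) : vec src tgt r i = 0 ∨ 1 ≤ |vec src tgt r i| := by
  unfold vec
  by_cases h : tgt r i = src r i
  · left
    rw [h]
    ring
  · right
    have h1 : ((tgt r i : ℤ) - (src r i : ℤ)) ≠ 0 := by
      intro h2
      apply h
      omega
    have h2 : (1 : ℤ) ≤ |(tgt r i : ℤ) - (src r i : ℤ)| := Int.one_le_abs h1
    have h3 : ((1 : ℤ) : ℝ) ≤ ((|(tgt r i : ℤ) - (src r i : ℤ)| : ℤ) : ℝ) := by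
      exact_mod_cast h2
    simpa using h3

variable {src tgt}

lemma vec_ne_zero (hne : ∀ r, src r ≠ tgt r) (r : ι) : vec src tgt r ≠ 0 := by
  intro h
  apply hne r
  funext i
  have h1 := congrFun h i
  simp only [vec, Pi.zero_apply] at h1
  have h2 : (tgt r i : ℝ) = src r i := by linarith
  exact_mod_cast h2.symm

lemma par_ind (hne : ∀ r, src r ≠ tgt r) {r r' : ι} (hnp : ¬ Par src tgt r r') :
    ∀ a b : ℝ, (∀ i, a * vec src tgt r i + b * vec src tgt r' i = 0) → a = 0 ∧ b = 0 := by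
  intro a b h
  by_cases ha : a = 0
  · refine ⟨ha, ?_⟩
    by_contra hb
    apply vec_ne_zero hne r'
    funext i
    have := h i
    rw [ha] at this
    simp only [zero_mul, zero_add, mul_eq_zero] at this
    exact this.resolve_left hb
  · exfalso
    have hv : ∀ i, vec src tgt r i = (-b / a) * vec src tgt r' i := fun i => by
      have := h i
      field_simp
      linarith
    by_cases hb : b = 0
    · apply vec_ne_zero hne r
      funext i
      rw [hv i, hb]
      simp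
    · exact hnp ⟨-b / a, div_ne_zero (neg_ne_zero.mpr hb) ha, hv⟩

lemma ip_sj_eq (j : PClass src tgt) (x : Fin d → ℝ) :
    ip (lg x) (vec src tgt j.out) = ip (sj src tgt j) (lg x) := by
  rw [ip_comm]
  rfl

/-- Only one parallelism class can be active when reaction pairs see large values. -/
lemma active_unique {D B : ℝ} {x : Fin d → ℝ} (hD1 : 2 * B ≤ D) (hB0 : 0 < B)
    (hfar : ∀ r r', ¬ Par src tgt r r' →
      D < |ip (lg x) (vec src tgt r)| ∨ D < |ip (lg x) (vec src tgt r')|)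
    {j₀ : PClass src tgt} (hj₀ : ip (sj src tgt j₀) (lg x) ^ 2 < 2 * B ^ 2) :
    (|ip (sj src tgt j₀) (lg x)| ≤ 2 * B) ∧
    (∀ r : ι, (Quotient.mk (parSetoid src tgt) r) ≠ j₀ → D < |ip (lg x) (vec src tgt r)|) ∧
    (∀ j, j ≠ j₀ → 2 * B ^ 2 ≤ ip (sj src tgt j) (lg x) ^ 2) := by
  have hsmall : ∀ g : ℝ, g ^ 2 < 2 * B ^ 2 → |g| ≤ 2 * B := by
    intro g hg
    by_contra hn
    push_neg at hn
    have h1 := sq_abs g
    nlinarith [abs_nonneg g]
  have hg := hsmall _ hj₀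
  have hfar2 : ∀ r : ι, (Quotient.mk (parSetoid src tgt) r) ≠ j₀ →
      D < |ip (lg x) (vec src tgt r)| := by
    intro r hr
    have hnp : ¬ Par src tgt r j₀.out := fun h => hr (by
      have h1 : Quotient.mk (parSetoid src tgt) r = Quotient.mk (parSetoid src tgt) j₀.out :=
        Quotient.sound h
      rw [h1]
      exact Quotient.out_eq j₀)
    rcases hfar r j₀.out hnp with h | h
    · exact h
    · exfalso
      rw [ip_sj_eq] at h
      linarith
  refine ⟨hg, hfar2, ?_⟩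
  intro j hj
  by_contra hcon
  push_neg at hcon
  have h1 := hfar2 j.out (by
    rw [show Quotient.mk (parSetoid src tgt) j.out = j from Quotient.out_eq j]
    exact hj)
  rw [ip_sj_eq] at h1
  have h2 := hsmall _ hcon
  linarith

/-- The pointwise Lyapunov inequality. -/
theorem lyap_nonpos [Fintype ι] [Fintype (PClass src tgt)] (hne : ∀ r, src r ≠ tgt r)
    (WR : WeaklyRev src tgt) {ε : ℝ} (hε0 : 0 < ε) (hε1 : ε ≤ 1) (ρ : ι → ℝ)
    (hρ : ∀ r i, vec src tgt r i = ρ r * sj src tgt (Quotient.mk (parSetoid src tgt) r) i)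
    {ρmin : ℝ} (hρmin : ∀ r, ρmin ≤ |ρ r|) {B : ℝ} (hB0 : 0 < B)
    (hB : lev (Fintype.card ι) ε (1 / ε) 0 (Fintype.card ι) + 1 ≤ ρmin * B)
    {Y1 Y2 : ℝ} (hY1 : ∀ r, ∑ i, (src r i : ℝ) ≤ Y1) (hY2 : ∀ r, ∑ i, |vec src tgt r i| ≤ Y2)
    {D : ℝ} (hD1 : 2 * B ≤ D)
    (hD : lev (Fintype.card ι) (ε / Real.exp (2 * B * Y1)) (Real.exp (2 * B * Y1) / ε)
        (24 * B * Real.exp (2 * B) * Y2) (Fintype.card ι) + 1 + 2 * B * Y2 ≤ D)
    {x : Fin d → ℝ} (hx : ∀ i, 0 < x i) {k : ι → ℝ} (hk : ∀ r, ε ≤ k r ∧ k r ≤ 1 / ε)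
    (hfar : ∀ r r', ¬ Par src tgt r r' →
      D < |ip (lg x) (vec src tgt r)| ∨ D < |ip (lg x) (vec src tgt r')|) :
    ip (grad (sj src tgt) B x) (∑ r, rt src k x r • vec src tgt r) ≤ 0 := by
  classical
  rw [ip_sum_smul]
  have hsne : ∀ j : PClass src tgt, sj src tgt j ≠ 0 := fun j => vec_ne_zero hne _
  have hs1 : ∀ (j : PClass src tgt) i, sj src tgt j i = 0 ∨ 1 ≤ |sj src tgt j i| :=
    fun j i => vec_int src tgt _ i
  by_cases hact : ∃ j : PClass src tgt, ip (sj src tgt j) (lg x) ^ 2 < 2 * B ^ 2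
  · obtain ⟨j₀, hj₀⟩ := hact
    obtain ⟨hg, hfar2, hin⟩ := active_unique hD1 hB0 hfar hj₀
    simp_rw [grad_eq_single hB0 hin]
    apply sum_nonpos_of_classes WR
    intro r0
    by_cases hallpar : ∀ r ∈ classOf src tgt r0, Quotient.mk (parSetoid src tgt) r = j₀
    · apply parallel_class hne WR hε0 hε1 r0 (hsne j₀) hx hk hB0 ρ ρmin hρmin hB
      intro r hr i
      rw [hρ r i, hallpar r hr]
    · push_neg at hallpar
      obtain ⟨r1, hr1, hne1⟩ := hallpar
      exact nonparallel_class hne WR hε0 hε1 r0 (hsne j₀) (hs1 j₀) hx hk hB0 hY1 hY2 hD hg hr1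
        (hfar2 r1 hne1).le
  · push_neg at hact
    simp_rw [grad_eq_none hB0 hact]
    apply sum_nonpos_of_classes WR
    intro r0
    have hr0 : r0 ∈ classOf src tgt r0 := mem_classOf.mpr Relation.ReflTransGen.refl
    have hcl := net_class hne WR ε (1 / ε) 0 hε0 (eps_le_inv hε0 hε1) le_rfl r0 (lg x) k
      (fun r _ => hk r) ⟨r0, hr0, by
        rw [ip_smul_right _ _ _ (hρ r0), abs_mul, ip_comm (lg x) _]
        have h1 := hρmin r0
        have hρ0 : 0 ≤ |ρ r0| := abs_nonneg _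
        have h3 : B ≤ |ip (sj src tgt (Quotient.mk (parSetoid src tgt) r0)) (lg x)| := by
          apply le_abs_of_sq hB0
          have h4 := hact (Quotient.mk (parSetoid src tgt) r0)
          have h5 : 0 < B ^ 2 := by positivity
          linarith
        have h2 : ρmin * B ≤ |ρ r0| * |ip (sj src tgt (Quotient.mk (parSetoid src tgt) r0)) (lg x)| :=
          mul_le_mul h1 h3 hB0.le hρ0
        linarith⟩
    simpa [rt] using hcl

end par

lemma W_le_V {J : Type} [Fintype J] {s : J → Fin d → ℝ} (hs : ∀ j, s j ≠ 0) (B : ℝ) {x : Fin d → ℝ}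
    (hx : ∀ i, 0 < x i) : W s B x ≤ V x := by
  unfold W
  have : 0 ≤ ∑ j, beta B (ip (s j) (lg x)) * (V x - Vt (s j) x) :=
    Finset.sum_nonneg fun j _ => mul_nonneg beta_nonneg (sub_nonneg.mpr (E_nonneg (hs j) hx))
  linarith

lemma W_single {J : Type} [Fintype J] {s : J → Fin d → ℝ} {B : ℝ} (hB : 0 < B) {x : Fin d → ℝ}
    {j₀ : J} (hin : ∀ j, j ≠ j₀ → 2 * B ^ 2 ≤ ip (s j) (lg x) ^ 2) :
    W s B x = V x - beta B (ip (s j₀) (lg x)) * (V x - Vt (s j₀) x) := by
  unfold W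
  congr 1
  apply Finset.sum_eq_single j₀
  · intro j _ hj
    rw [beta_eq_zero hB (hin j hj)]
    ring
  · intro h
    exact absurd (Finset.mem_univ j₀) h

lemma W_none {J : Type} [Fintype J] {s : J → Fin d → ℝ} {B : ℝ} (hB : 0 < B) {x : Fin d → ℝ}
    (hin : ∀ j, 2 * B ^ 2 ≤ ip (s j) (lg x) ^ 2) : W s B x = V x := by
  unfold W
  rw [Finset.sum_eq_zero]
  · ring
  · intro j _
    rw [beta_eq_zero hB (hin j)]
    ring

/-- The coordinates stay in the stoichiometric class. -/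
lemma mem_S_of_deriv {S : Submodule ℝ (Fin d → ℝ)} {x : ℝ → Fin d → ℝ} {u : ℝ → Fin d → ℝ} {T : ℝ}
    (hd : ∀ t ∈ Ico (0 : ℝ) T, HasDerivWithinAt x (u t) (Ico 0 T) t)
    (hu : ∀ t ∈ Ico (0 : ℝ) T, u t ∈ S) {t : ℝ} (ht : t ∈ Ico (0 : ℝ) T) : x t - x 0 ∈ S := by
  by_contra hn
  obtain ⟨f, hf1, hf2⟩ := Submodule.exists_dual_map_eq_bot_of_notMem hn inferInstance
  let L : (Fin d → ℝ) →L[ℝ] ℝ := LinearMap.toContinuousLinearMap f
  have hLf : ∀ w, L w = f w := fun w => rfl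
  have hzero : ∀ w ∈ S, f w = 0 := by
    intro w hw
    have : f w ∈ S.map f := Submodule.mem_map_of_mem hw
    rw [hf2] at this
    simpa using this
  have hφ : ∀ t ∈ Ico (0 : ℝ) T, HasDerivWithinAt (fun t' => f (x t')) 0 (Ico 0 T) t := by
    intro t ht
    have h1 := L.hasFDerivAt.comp_hasDerivWithinAt t (hd t ht)
    have h2 : L (u t) = 0 := by
      rw [hLf]
      exact hzero _ (hu t ht)
    rw [h2] at h1
    exact h1
  have h1 := comparison (f := fun t' => f (x t')) (f' := fun _ => 0) (T := T) (L := f (x 0))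
    hφ le_rfl (fun _ _ _ => le_rfl) t ht
  have h2 := comparison (f := fun t' => -f (x t')) (f' := fun _ => -0) (T := T) (L := -f (x 0))
    (fun t ht => (hφ t ht).neg) le_rfl (fun _ _ _ => by simp) t ht
  apply hf1
  rw [map_sub]
  have h1' : f (x t) ≤ f (x 0) := h1
  have h2' : -f (x t) ≤ -f (x 0) := h2
  linarith

/-- Uniform boundedness for weakly reversible mass-action systems with `dim S ≤ 2`. -/
theorem bounded_main [Fintype ι] (src tgt : ι → Fin d → ℕ) (hne : ∀ r, src r ≠ tgt r)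
    (WR : WeaklyRev src tgt)
    (hrank : Module.finrank ℝ (Submodule.span ℝ (Set.range (vec src tgt))) ≤ 2)
    (ε : ℝ) (hε : 0 < ε) (c : Fin d → ℝ) (hc : ∀ i, 0 < c i) (Λ₀ : ℝ) :
    ∃ M : ℝ, ∀ (k : ι → ℝ → ℝ) (T : ℝ) (x : ℝ → Fin d → ℝ),
      (∀ r, ∀ t ∈ Ico (0 : ℝ) T, ε ≤ k r t ∧ k r t ≤ 1 / ε) →
      x 0 - c ∈ Submodule.span ℝ (Set.range (vec src tgt)) →
      (∀ i, x 0 i ≤ Λ₀) →
      (∀ t ∈ Ico (0 : ℝ) T, (∀ i, 0 < x t i) ∧
        HasDerivWithinAt x (∑ r, (k r t * ∏ i, x t i ^ src r i) • vec src tgt r) (Ico 0 T) t) →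
      ∀ t ∈ Ico (0 : ℝ) T, ∀ i, x t i ≤ M := by
  classical
  -- normalise ε
  set ε' := min ε 1 with hε'
  have hε'0 : 0 < ε' := lt_min hε one_pos
  have hε'1 : ε' ≤ 1 := min_le_right _ _
  have hε'le : ε' ≤ ε := min_le_left _ _
  -- the parallelism factors
  have hρex : ∀ r, ∃ ρ : ℝ, ρ ≠ 0 ∧
      ∀ i, vec src tgt r i = ρ * sj src tgt (Quotient.mk (parSetoid src tgt) r) i := by
    intro r
    have h1 : Par src tgt r (Quotient.mk (parSetoid src tgt) r).out :=
      (parSetoid src tgt).symm (Quotient.mk_out (s := parSetoid src tgt) r)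
    exact h1
  choose ρ hρ0 hρ using hρex
  set ρmin := (∑ r, 1 / |ρ r| + 1)⁻¹ with hρminDef
  have hsum0 : 0 < ∑ r, 1 / |ρ r| + 1 := by
    have : 0 ≤ ∑ r, 1 / |ρ r| := Finset.sum_nonneg fun r _ => by positivity
    linarith
  have hρmin0 : 0 < ρmin := inv_pos.mpr hsum0
  have hρmin : ∀ r, ρmin ≤ |ρ r| := by
    intro r
    have hpos : 0 < |ρ r| := abs_pos.mpr (hρ0 r)
    have h1 : 1 / |ρ r| ≤ ∑ r, 1 / |ρ r| :=
      Finset.single_le_sum (f := fun r => 1 / |ρ r|) (fun r _ => by positivity) (Finset.mem_univ r)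
    rw [hρminDef, inv_le_comm₀ hsum0 hpos]
    rw [← one_div]
    linarith
  -- constants
  set N := Fintype.card ι with hN
  set B := max 1 ((lev N ε' (1 / ε') 0 N + 1) / ρmin) with hBdef
  have hB0 : 0 < B := lt_of_lt_of_le one_pos (le_max_left _ _)
  have hB : lev N ε' (1 / ε') 0 N + 1 ≤ ρmin * B := by
    have h1 : (lev N ε' (1 / ε') 0 N + 1) / ρmin ≤ B := le_max_right _ _
    rw [div_le_iff₀ hρmin0] at h1
    linarith
  set Y1 := ∑ r, ∑ i, (src r i : ℝ) with hY1def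
  set Y2 := ∑ r, ∑ i, |vec src tgt r i| with hY2def
  have hY1 : ∀ r, ∑ i, (src r i : ℝ) ≤ Y1 := fun r =>
    Finset.single_le_sum (f := fun r => ∑ i, (src r i : ℝ))
      (fun r _ => Finset.sum_nonneg fun i _ => Nat.cast_nonneg _) (Finset.mem_univ r)
  have hY2 : ∀ r, ∑ i, |vec src tgt r i| ≤ Y2 := fun r =>
    Finset.single_le_sum (f := fun r => ∑ i, |vec src tgt r i|)
      (fun r _ => Finset.sum_nonneg fun i _ => abs_nonneg _) (Finset.mem_univ r)
  set D := max (2 * B) (lev N (ε' / Real.exp (2 * B * Y1)) (Real.exp (2 * B * Y1) / ε')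
        (24 * B * Real.exp (2 * B) * Y2) N + 1 + 2 * B * Y2) with hDdef
  have hD1 : 2 * B ≤ D := le_max_left _ _
  have hD2 : lev N (ε' / Real.exp (2 * B * Y1)) (Real.exp (2 * B * Y1) / ε')
        (24 * B * Real.exp (2 * B) * Y2) N + 1 + 2 * B * Y2 ≤ D := le_max_right _ _
  have hD0 : 0 ≤ D := le_trans (by positivity) hD1
  -- the box
  have hRex : ∀ r r' : ι, ∃ R : ℝ, ¬ Par src tgt r r' → ∀ x : Fin d → ℝ, (∀ i, 0 < x i) →
      x - c ∈ Submodule.span ℝ (Set.range (vec src tgt)) →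
      |ip (lg x) (vec src tgt r)| ≤ D → |ip (lg x) (vec src tgt r')| ≤ D → ∀ i, x i ≤ R := by
    intro r r'
    by_cases hp : Par src tgt r r'
    · exact ⟨0, fun h => absurd hp h⟩
    · have hind := par_ind hne hp
      obtain ⟨R, hR⟩ := far_out hc hind D hD0
      refine ⟨R, fun _ x hx hS h1 h2 => hR x hx ?_ h1 h2⟩
      obtain ⟨a, b, hab⟩ := mem_pair_of_rank_le hrank hind hS
      exact ⟨a, b, fun i => by simpa using hab i⟩
  choose Rf hRf using hRex
  set Rbox := ∑ r, ∑ r', |Rf r r'| with hRboxDef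
  have hRbox : ∀ r r', Rf r r' ≤ Rbox := by
    intro r r'
    have h1 : |Rf r r'| ≤ ∑ r', |Rf r r'| :=
      Finset.single_le_sum (f := fun r' => |Rf r r'|) (fun _ _ => abs_nonneg _) (Finset.mem_univ r')
    have h2 : ∑ r', |Rf r r'| ≤ Rbox :=
      Finset.single_le_sum (f := fun r => ∑ r', |Rf r r'|)
        (fun _ _ => Finset.sum_nonneg fun _ _ => abs_nonneg _) (Finset.mem_univ r)
    linarith [le_abs_self (Rf r r')]
  set R₀ := max (max Rbox Λ₀) 1 with hR₀def
  have hR₀1 : 1 ≤ R₀ := le_max_right _ _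
  have hR₀box : Rbox ≤ R₀ := le_trans (le_max_left _ _) (le_max_left _ _)
  have hR₀Λ : Λ₀ ≤ R₀ := le_trans (le_max_right _ _) (le_max_left _ _)
  set L₀ := (d : ℝ) * (R₀ * Real.log R₀) with hL₀
  set Q := max (Real.exp 2) (L₀ + d) with hQ
  have hQ0 : 0 < Q := lt_of_lt_of_le (Real.exp_pos 2) (le_max_left _ _)
  refine ⟨max R₀ (Q * Real.exp (2 * B)), ?_⟩
  intro k T x hk hS0 hΛ htraj t ht
  have hx : ∀ t ∈ Ico (0 : ℝ) T, ∀ i, 0 < x t i := fun t ht => (htraj t ht).1
  have hder : ∀ t ∈ Ico (0 : ℝ) T,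
      HasDerivWithinAt x (∑ r, (k r t * ∏ i, x t i ^ src r i) • vec src tgt r) (Ico 0 T) t :=
    fun t ht => (htraj t ht).2
  have h00 : (0 : ℝ) ∈ Ico (0 : ℝ) T := ⟨le_rfl, lt_of_le_of_lt ht.1 ht.2⟩
  -- rates
  have hk' : ∀ t ∈ Ico (0 : ℝ) T, ∀ r, ε' ≤ k r t ∧ k r t ≤ 1 / ε' := by
    intro t ht r
    obtain ⟨h1, h2⟩ := hk r t ht
    refine ⟨le_trans hε'le h1, le_trans h2 ?_⟩
    exact one_div_le_one_div_of_le hε'0 hε'le
  -- staying in the class
  have hSt : ∀ t ∈ Ico (0 : ℝ) T, x t - c ∈ Submodule.span ℝ (Set.range (vec src tgt)) := by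
    intro t ht
    have h1 := mem_S_of_deriv (S := Submodule.span ℝ (Set.range (vec src tgt))) hder
      (fun t _ => Submodule.sum_mem _ fun r _ =>
        Submodule.smul_mem _ _ (Submodule.subset_span ⟨r, rfl⟩)) ht
    have h2 := Submodule.add_mem _ h1 hS0
    have e : x t - x 0 + (x 0 - c) = x t - c := by abel
    rwa [e] at h2
  -- outside the box all non-parallel pairs see large values
  have hfarAll : ∀ t ∈ Ico (0 : ℝ) T, (∃ i, R₀ < x t i) → ∀ r r', ¬ Par src tgt r r' →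
      D < |ip (lg (x t)) (vec src tgt r)| ∨ D < |ip (lg (x t)) (vec src tgt r')| := by
    intro t ht ⟨i, hi⟩ r r' hp
    by_contra hcon
    push_neg at hcon
    have h1 := hRf r r' hp (x t) (hx t ht) (hSt t ht) hcon.1 hcon.2 i
    linarith [hRbox r r']
  have hsne : ∀ j : PClass src tgt, sj src tgt j ≠ 0 := fun j => vec_ne_zero hne _
  have hs1 : ∀ (j : PClass src tgt) i, sj src tgt j i = 0 ∨ 1 ≤ |sj src tgt j i| :=
    fun j i => vec_int src tgt _ i
  -- derivative form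
  have hderW : ∀ t ∈ Ico (0 : ℝ) T, HasDerivWithinAt (fun t' => W (sj src tgt) B (x t'))
      (ip (grad (sj src tgt) B (x t)) (∑ r, rt src (fun r => k r t) (x t) r • vec src tgt r))
      (Ico 0 T) t := by
    intro t ht
    have h1 := hasDerivWithinAt_W hsne B hx ht (hder t ht)
    have e : (∑ r, (k r t * ∏ i, x t i ^ src r i) • vec src tgt r)
        = ∑ r, rt src (fun r => k r t) (x t) r • vec src tgt r := by
      apply Finset.sum_congr rfl
      intro r _
      unfold rt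
      rw [exp_ipN (hx t ht)]
    rw [e] at h1
    exact h1
  have hWbox : ∀ t ∈ Ico (0 : ℝ) T, (∀ i, x t i ≤ R₀) → W (sj src tgt) B (x t) ≤ L₀ := by
    intro t ht hb
    exact le_trans (W_le_V hsne B (hx t ht)) (V_le_of_box (hx t ht) hR₀1 hb)
  have hW0 : W (sj src tgt) B (x 0) ≤ L₀ :=
    hWbox 0 h00 (fun i => le_trans (hΛ i) hR₀Λ)
  have hWle := comparison hderW hW0 (fun t ht hL => by
    have hout : ∃ i, R₀ < x t i := by
      by_contra hn
      push_neg at hn
      linarith [hWbox t ht hn]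
    exact lyap_nonpos hne WR hε'0 hε'1 ρ hρ hρmin hB0 hB hY1 hY2 hD1 hD2 (hx t ht) (hk' t ht)
      (hfarAll t ht hout))
  -- conclusion
  intro i
  by_cases hin : ∀ i, x t i ≤ R₀
  · exact le_max_of_le_left (hin i)
  push_neg at hin
  apply le_max_of_le_right
  have hfar := hfarAll t ht hin
  have hxt := hx t ht
  have hW := hWle t ht
  have hexp1 : 1 ≤ Real.exp (2 * B) := Real.one_le_exp (by positivity)
  have hfromV : V (x t) ≤ L₀ → x t i ≤ Q * Real.exp (2 * B) := by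
    intro hV
    have h1 := coord_le_of_V_le hxt hV i
    nlinarith
  by_cases hact : ∃ j : PClass src tgt, ip (sj src tgt j) (lg (x t)) ^ 2 < 2 * B ^ 2
  · obtain ⟨j₀, hj₀⟩ := hact
    obtain ⟨hg, _, hin2⟩ := active_unique hD1 hB0 hfar hj₀
    rw [W_single hB0 hin2] at hW
    have hβ0 : 0 ≤ beta B (ip (sj src tgt j₀) (lg (x t))) := beta_nonneg
    have hβ1 : beta B (ip (sj src tgt j₀) (lg (x t))) ≤ 1 := beta_le_one
    by_cases hV : V (x t) ≤ L₀
    · exact hfromV hV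
    push_neg at hV
    have hVt : Vt (sj src tgt j₀) (x t) ≤ L₀ := by
      by_contra hn
      push_neg at hn
      have h1 : 0 ≤ (1 - beta B (ip (sj src tgt j₀) (lg (x t)))) * (V (x t) - L₀) :=
        mul_nonneg (by linarith) (by linarith)
      rcases eq_or_lt_of_le hβ0 with h | h
      · rw [← h] at hW
        linarith
      · have h3 : 0 < beta B (ip (sj src tgt j₀) (lg (x t))) * (Vt (sj src tgt j₀) (x t) - L₀) :=
          mul_pos h (by linarith)
        nlinarith [h1, h3]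
    obtain ⟨hz, _⟩ := zF_spec (hsne j₀) hxt
    have h1 := coord_le_of_V_le hz hVt i
    have h2 := abs_ell_le (hsne j₀) hxt (hs1 j₀) i
    have h3 : Real.log (x t i) ≤ Real.log (zF (sj src tgt j₀) (x t) i) + 2 * B := by
      have h4 := (abs_le.mp (le_trans h2 hg)).1
      unfold ell at h4
      linarith
    have h5 : x t i ≤ zF (sj src tgt j₀) (x t) i * Real.exp (2 * B) := by
      calc x t i = Real.exp (Real.log (x t i)) := (Real.exp_log (hxt i)).symm
        _ ≤ Real.exp (Real.log (zF (sj src tgt j₀) (x t) i) + 2 * B) := Real.exp_le_exp.mpr h3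
        _ = zF (sj src tgt j₀) (x t) i * Real.exp (2 * B) := by
            rw [Real.exp_add, Real.exp_log (hz i)]
    exact le_trans h5 (mul_le_mul_of_nonneg_right h1 (by positivity))
  · push_neg at hact
    rw [W_none hB0 hact] at hW
    exact hfromV hW

end

end Vale.Agent.P072
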