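import Vale.Agent.P072.ClassLemma

/-!
Reaction networks: reachability classes and the class estimate in network form.
-/

namespace Vale.Agent.P072

open Finset

noncomputable section

variable {d : ℕ} {ι : Type}

/-- The reaction vector. -/
def vec (src tgt : ι → Fin d → ℕ) (r : ι) : Fin d → ℝ :=
  fun i => (tgt r i : ℝ) - (src r i : ℝ)

/-- One reaction step between complexes. -/
def Step (src tgt : ι → Fin d → ℕ) (y y' : Fin d → ℕ) : Prop :=
  ∃ r, src r = y ∧ tgt r = y'

/-- Directed reachability between complexes. -/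
abbrev Reach (src tgt : ι → Fin d → ℕ) := Relation.ReflTransGen (Step src tgt)

/-- Weak reversibility. -/
def WeaklyRev (src tgt : ι → Fin d → ℕ) : Prop :=
  ∀ r, Reach src tgt (tgt r) (src r)

/-- Pairing of a real vector with a complex. -/
def ipN (p : Fin d → ℝ) (y : Fin d → ℕ) : ℝ := ∑ i, p i * (y i : ℝ)

/-- Euclidean pairing. -/
def ip (p u : Fin d → ℝ) : ℝ := ∑ i, p i * u i

lemma ipN_vec (src tgt : ι → Fin d → ℕ) (p : Fin d → ℝ) (r : ι) :
    ipN p (tgt r) - ipN p (src r) = ip p (vec src tgt r) := by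
  unfold ipN ip vec
  rw [← Finset.sum_sub_distrib]
  apply Finset.sum_congr rfl
  intro i _
  ring

lemma reach_symm {src tgt : ι → Fin d → ℕ} (WR : WeaklyRev src tgt) {y y' : Fin d → ℕ}
    (h : Reach src tgt y y') : Reach src tgt y' y := by
  induction h with
  | refl => exact Relation.ReflTransGen.refl
  | tail _ hstep ih =>
    obtain ⟨r, h1, h2⟩ := hstep
    have := WR r
    rw [h1, h2] at this
    exact this.trans ih

/-- Every target of a reaction is the source of a reaction in the same class. -/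
lemma target_is_source {src tgt : ι → Fin d → ℕ} (hne : ∀ r, src r ≠ tgt r)
    (WR : WeaklyRev src tgt) (r : ι) : ∃ ρ, src ρ = tgt r := by
  have h := WR r
  rcases Relation.ReflTransGen.cases_head h with h1 | h1
  · exact absurd h1.symm (hne r)
  · obtain ⟨c, ⟨ρ, h2, _⟩, _⟩ := h1
    exact ⟨ρ, h2⟩

/-- Crossing a level along a path. -/
lemma exit_of_reach {src tgt : ι → Fin d → ℕ} (b : (Fin d → ℕ) → ℝ) (θ : ℝ) {y₀ y : Fin d → ℕ}
    (h : Reach src tgt y₀ y) (h0 : θ ≤ b y₀) (h1 : b y < θ) :
    ∃ r, Reach src tgt y₀ (src r) ∧ θ ≤ b (src r) ∧ b (tgt r) < θ := by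
  induction h with
  | refl => exact absurd h0 (not_le.mpr h1)
  | @tail w y hw hstep ih =>
    obtain ⟨r, h2, h3⟩ := hstep
    by_cases hθ : θ ≤ b w
    · refine ⟨r, ?_, ?_, ?_⟩
      · rw [h2]; exact hw
      · rw [h2]; exact hθ
      · rw [h3]; exact h1
    · exact ih (not_le.mp hθ)

open Classical in
/-- The class of a reaction: reactions whose sources are reachable from its source. -/
def classOf (src tgt : ι → Fin d → ℕ) [Fintype ι] (r0 : ι) : Finset ι :=
  Finset.univ.filter (fun r => Reach src tgt (src r0) (src r))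

lemma mem_classOf {src tgt : ι → Fin d → ℕ} [Fintype ι] {r0 r : ι} :
    r ∈ classOf src tgt r0 ↔ Reach src tgt (src r0) (src r) := by
  simp [classOf]

/-- The setoid of classes. -/
def classSetoid {src tgt : ι → Fin d → ℕ} (WR : WeaklyRev src tgt) : Setoid ι where
  r r r' := Reach src tgt (src r) (src r')
  iseqv :=
    ⟨fun _ => Relation.ReflTransGen.refl, fun h => reach_symm WR h, fun h h' => h.trans h'⟩

/-- A sum is nonpositive if it is nonpositive on each class. -/
lemma sum_nonpos_of_classes [Fintype ι] {src tgt : ι → Fin d → ℕ} (WR : WeaklyRev src tgt)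
    (f : ι → ℝ) (h : ∀ r0, ∑ r ∈ classOf src tgt r0, f r ≤ 0) : ∑ r, f r ≤ 0 := by
  classical
  letI : Setoid ι := classSetoid WR
  rw [Finset.sum_partition (classSetoid WR)]
  apply Finset.sum_nonpos
  intro q hq
  obtain ⟨r0, _, rfl⟩ := Finset.mem_image.mp hq
  have : (Finset.univ.filter (fun y => Quotient.mk (classSetoid WR) y = Quotient.mk (classSetoid WR) r0))
      = classOf src tgt r0 := by
    ext y
    simp only [Finset.mem_filter, Finset.mem_univ, true_and, mem_classOf]
    rw [Quotient.eq]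
    exact ⟨fun hy => reach_symm WR hy, fun hy => reach_symm WR hy⟩
  rw [this]
  exact h r0

/-- The class estimate for a network. -/
theorem net_class [Fintype ι] {src tgt : ι → Fin d → ℕ} (hne : ∀ r, src r ≠ tgt r)
    (WR : WeaklyRev src tgt) (kl ku Γ : ℝ) (hkl : 0 < kl) (hku : kl ≤ ku) (hΓ : 0 ≤ Γ)
    (r0 : ι) (p : Fin d → ℝ) (k : ι → ℝ) (hk : ∀ r ∈ classOf src tgt r0, kl ≤ k r ∧ k r ≤ ku)
    (hspread : ∃ r ∈ classOf src tgt r0,
      lev (Fintype.card ι) kl ku Γ (Fintype.card ι) + 1 ≤ |ip p (vec src tgt r)|) :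
    ∑ r ∈ classOf src tgt r0, k r * Real.exp (ipN p (src r)) * ip p (vec src tgt r)
      ≤ -Γ * ∑ r ∈ classOf src tgt r0, k r * Real.exp (ipN p (src r)) := by
  classical
  have h := class_bound (classOf src tgt r0) (fun r => ipN p (src r)) (fun r => ipN p (tgt r)) k
    (Fintype.card ι) kl ku Γ hkl hku hΓ (Finset.card_le_univ _) hk ?_ ?_ ?_
  · simpa only [ipN_vec] using h
  · intro r hr
    obtain ⟨ρ, hρ⟩ := target_is_source hne WR r
    refine ⟨ρ, ?_, by simp only [hρ]⟩
    rw [mem_classOf] at hr ⊢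
    rw [hρ]
    exact hr.tail ⟨r, rfl, rfl⟩
  · intro θ r hr r' hr' h1 h2
    rw [mem_classOf] at hr hr'
    have hrr' : Reach src tgt (src r) (src r') := (reach_symm WR hr).trans hr'
    obtain ⟨r'', h3, h4, h5⟩ := exit_of_reach (fun y => ipN p y) θ hrr' h1 h2
    refine ⟨r'', ?_, h4, h5⟩
    rw [mem_classOf]
    exact hr.trans h3
  · obtain ⟨r, hr, hs⟩ := hspread
    refine ⟨r, hr, ?_⟩
    simpa only [ipN_vec] using hs

end

end Vale.Agent.P072
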